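import Vale.Agent.P032.S5.H450.Node
import Vale.Agent.P032.S5.H394.Ends
import Vale.Agent.P032.S5.H360.Match

/-!
# P032: a six coloured centre without light neighbours

`z` with all six colours, `v`, `q` on its unit circle with complementary palettes of three colours, not
opposite.  Then some centre `v' + q' - z` (`v'`, `q'` with the palettes of `v`, `q`) misses a colour.
No minimality, no clean circles.
-/

open Set Filter Topology Metric

noncomputable section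

namespace Vale.Agent.P032.S5.H410

open Vale.Agent.P032.Six Vale.Agent.P032.S5.H450

variable {U : Fin 6 → Set ℂ} {T : ℂ → Set (Fin 6)} {X : Set (Fin 6)} {z v q : ℂ}

/-- inner product -/
def ip (a b : ℂ) : ℝ := a.re * b.re + a.im * b.im

theorem cis_re' (t : ℝ) : (cis t).re = Real.cos t := by rw [cis, Complex.exp_ofReal_mul_I_re]

theorem cis_im' (t : ℝ) : (cis t).im = Real.sin t := by rw [cis, Complex.exp_ofReal_mul_I_im]

theorem cr_cis (s t : ℝ) : cr (cis s) (cis t) = Real.sin (t - s) := by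
  rw [cr, cis_re', cis_re', cis_im', cis_im', Real.sin_sub]; ring

theorem cis_ne {s t : ℝ} (h : Real.sin (t - s) ≠ 0) : cis s ≠ cis t := by
  intro h1
  apply h
  rw [← cr_cis, h1, cr]; ring

theorem cis_add_ne {s t : ℝ} (h : Real.sin (t - s) ≠ 0) : cis s + cis t ≠ 0 := by
  intro h1
  apply h
  have h2 : cis t = -cis s := by linear_combination h1
  rw [← cr_cis, h2, cr]
  simp only [Complex.neg_re, Complex.neg_im]
  ring

/-- unit circles about points near `v'`, `q'` meet near the fourth vertex -/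
theorem meet {z v' q' : ℂ} (hv : dist v' z = 1) (hq : dist q' z = 1) (hne : v' ≠ q')
    (hop : v' + q' ≠ 2 * z) {W : Set ℂ} (hW : W ∈ 𝓝 (v' + q' - z)) :
    ∃ E ∈ 𝓝 v', ∃ E' ∈ 𝓝 q', ∀ e ∈ E, ∀ e' ∈ E', ∃ x ∈ W, dist x e = 1 ∧ dist x e' = 1 := by
  obtain ⟨t0, ht0⟩ := exists_cis (u := q' - z) (by rw [← dist_eq_norm]; exact hq)
  have hw : v' + cis t0 = v' + q' - z := by rw [← ht0]; ring
  have h0 : dist (v' + cis t0) q' = 1 := by
    rw [hw, dist_eq_norm, show v' + q' - z - q' = v' - z by ring, ← dist_eq_norm]; exact hv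
  have hcr : cr (cis t0) (v' + cis t0 - q') ≠ 0 := by
    have h1 := cr_ne (z := z) (c := q') (q := v') (by rw [dist_comm]; exact hq)
      (by rw [dist_comm]; exact hv) hne.symm (by rw [add_comm]; exact hop)
    rw [hw, ← ht0]
    have e : cr (q' - z) (v' + q' - z - q') = cr (z - q') (z - v') := by
      simp only [cr, Complex.sub_re, Complex.sub_im, Complex.add_re, Complex.add_im]; ring
    rw [e]; exact h1
  obtain ⟨r, hr, hrW⟩ := Metric.mem_nhds_iff.1 hW
  have hc : ContinuousAt (fun t => v' + cis t) t0 :=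
    (continuous_const.add continuous_cis).continuousAt
  obtain ⟨η, hη, hηr⟩ := Metric.continuousAt_iff.1 hc (r / 2) (by positivity)
  obtain ⟨δ, hδ, hδ2⟩ := Metric.eventually_nhds_iff.1 (crossing h0 hcr hη)
  refine ⟨ball v' (min (δ / 2) (r / 2)), ball_mem_nhds _ (by positivity),
    ball q' (δ / 2), ball_mem_nhds _ (by positivity), fun e he e' he' => ?_⟩
  have he1 : dist e v' < δ / 2 := lt_of_lt_of_le he (min_le_left _ _)
  have he2 : dist e v' < r / 2 := lt_of_lt_of_le he (min_le_right _ _)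
  have he3 : dist e' q' < δ / 2 := he'
  obtain ⟨t, ht, ht1⟩ := hδ2 (y := e' - (e - v')) (by
    have h1 : e' - (e - v') - q' = (e' - q') - (e - v') := by ring
    rw [dist_eq_norm, h1]
    refine (norm_sub_le _ _).trans_lt ?_
    rw [← dist_eq_norm, ← dist_eq_norm]; linarith)
  refine ⟨e + cis t, hrW ?_, dist_add_cis e t, ?_⟩
  · have h1 := hηr (x := t) (by rw [Real.dist_eq]; exact ht)
    simp only [hw] at h1
    have h2 : dist (e + cis t) (v' + cis t) = dist e v' := dist_add_right _ _ _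
    have h3 := dist_triangle (e + cis t) (v' + cis t) (v' + q' - z)
    rw [mem_ball]; linarith
  · rw [dist_eq_norm] at ht1 ⊢
    rw [← ht1]; congr 1; ring

/-- the side of the unit circle about `v` on which the unit circle about `e` is -/
theorem side_eq {w a e x : ℂ} (ha : dist a w = 1) (he : dist e w = 1)
    (h0 : 1 + ip (a - w) (e - w) ≠ 0) (hx : dist x e = 1) :
    (x.re - a.re) ^ 2 + (x.im - a.im) ^ 2 - 1 = 2 * cr (a - w) (e - a) *
      (cr (a - w) (x - w) - ip (a - w) (x - w) *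
        (cr (a - w) (e - a) / (1 + ip (a - w) (e - w)))) := by
  rw [dist_eq_one_iff] at ha he hx
  have h1 : (x.re - a.re) ^ 2 + (x.im - a.im) ^ 2 - 1 =
      2 * ((x.re - w.re) * (e.re - a.re) + (x.im - w.im) * (e.im - a.im)) := by
    linear_combination hx - he + ha
  rw [h1, mul_assoc]
  congr 1
  have h2 : cr (a - w) (e - a) * (cr (a - w) (x - w) - ip (a - w) (x - w) *
      (cr (a - w) (e - a) / (1 + ip (a - w) (e - w)))) * (1 + ip (a - w) (e - w)) =
      cr (a - w) (e - a) * (cr (a - w) (x - w) * (1 + ip (a - w) (e - w)) -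
        ip (a - w) (x - w) * cr (a - w) (e - a)) := by
    field_simp
  refine mul_right_cancel₀ h0 ?_
  rw [h2]
  simp only [cr, ip, Complex.sub_re, Complex.sub_im]
  linear_combination (((a.re - w.re) * (x.re - w.re) + (a.im - w.im) * (x.im - w.im)) *
    ((e.re - w.re) ^ 2 + (e.im - w.im) ^ 2) -
    ((x.re - w.re) * (e.re - w.re) + (x.im - w.im) * (e.im - w.im)) *
    (1 + ((a.re - w.re) * (e.re - w.re) + (a.im - w.im) * (e.im - w.im)))) * ha +
    ((a.re - w.re) * (x.re - w.re) + (a.im - w.im) * (x.im - w.im)) * he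

theorem side {w a x0 : ℂ} (ha : dist a w = 1) (hc : cr (a - w) (x0 - w) ≠ 0) :
    ∀ᶠ p : ℂ × ℂ in 𝓝 a ×ˢ 𝓝 x0, dist p.1 w = 1 → dist p.2 p.1 = 1 → ∀ κ : ℝ,
      0 < κ * cr (a - w) (p.1 - a) → 0 < κ * cr (a - w) (x0 - w) *
        ((p.2.re - a.re) ^ 2 + (p.2.im - a.im) ^ 2 - 1) := by
  have hcr : ∀ b c : ℂ, Continuous fun p : ℂ × ℂ => cr b (p.1 - c) := by
    intro b c; unfold cr; fun_prop
  have hcr2 : ∀ b c : ℂ, Continuous fun p : ℂ × ℂ => cr b (p.2 - c) := by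
    intro b c; unfold cr; fun_prop
  have hip : ∀ b c : ℂ, Continuous fun p : ℂ × ℂ => 1 + ip b (p.1 - c) := by
    intro b c; unfold ip; fun_prop
  have hip2 : ∀ b c : ℂ, Continuous fun p : ℂ × ℂ => ip b (p.2 - c) := by
    intro b c; unfold ip; fun_prop
  have h3 : 1 + ip (a - w) (((a, x0) : ℂ × ℂ).1 - w) ≠ 0 := by
    rw [dist_eq_one_iff] at ha
    have : 1 + ip (a - w) (((a, x0) : ℂ × ℂ).1 - w) = 2 := by
      simp only [ip, Complex.sub_re, Complex.sub_im]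
      linear_combination ha
    rw [this]; norm_num
  have hF : ContinuousAt (fun p : ℂ × ℂ => cr (a - w) (x0 - w) *
      (cr (a - w) (p.2 - w) - ip (a - w) (p.2 - w) *
        (cr (a - w) (p.1 - a) / (1 + ip (a - w) (p.1 - w))))) (a, x0) :=
    continuousAt_const.mul ((hcr2 _ _).continuousAt.sub ((hip2 _ _).continuousAt.mul
      ((hcr _ _).continuousAt.div (hip _ _).continuousAt h3)))
  have hval : 0 < cr (a - w) (x0 - w) * (cr (a - w) (((a, x0) : ℂ × ℂ).2 - w) -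
      ip (a - w) (((a, x0) : ℂ × ℂ).2 - w) * (cr (a - w) (((a, x0) : ℂ × ℂ).1 - a) /
        (1 + ip (a - w) (((a, x0) : ℂ × ℂ).1 - w)))) := by
    have e0 : cr (a - w) (((a, x0) : ℂ × ℂ).1 - a) = 0 := by simp [cr]
    rw [e0, zero_div, mul_zero, sub_zero]
    exact mul_self_pos.2 hc
  rw [← nhds_prod_eq]
  filter_upwards [hF.eventually (lt_mem_nhds hval),
    (hip (a - w) w).continuousAt.eventually_ne h3] with p h4 h5 h6 h7 κ h8
  rw [side_eq ha h6 h5 h7]
  have e : κ * cr (a - w) (x0 - w) * (2 * cr (a - w) (p.1 - a) *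
      (cr (a - w) (p.2 - w) - ip (a - w) (p.2 - w) *
        (cr (a - w) (p.1 - a) / (1 + ip (a - w) (p.1 - w))))) =
      2 * (κ * cr (a - w) (p.1 - a)) * (cr (a - w) (x0 - w) *
      (cr (a - w) (p.2 - w) - ip (a - w) (p.2 - w) *
        (cr (a - w) (p.1 - a) / (1 + ip (a - w) (p.1 - w))))) := by ring
  rw [e]
  positivity

/-- points on the side of an exact arc -/
theorem gside (h : Irr U T) {P : Set (Fin 6)} {φ ψ ε l : ℝ} (hl : 0 < l) (hε : ε = 1 ∨ ε = -1)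
    (hG : ∀ t ∈ Ioo 0 l, P ⊆ T (z + cis (φ + ε * t))) (hs : Real.sin (ψ - φ) ≠ 0) :
    ∀ᶠ x in 𝓝 (z + cis φ + cis ψ), 0 < ε * Real.sin (ψ - φ) *
      ((x.re - (z + cis φ).re) ^ 2 + (x.im - (z + cis φ).im) ^ 2 - 1) →
      ∀ i ∈ P, i ∉ Pal U x := by
  set D := Real.sin (ψ - φ) with hD
  set w := z + cis φ + cis ψ with hw
  have hε2 : ε * ε = 1 := by rcases hε with rfl | rfl <;> norm_num
  have hε0 : ε ≠ 0 := by rcases hε with rfl | rfl <;> norm_num
  have hεD : ε * D ≠ 0 := mul_ne_zero hε0 hs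
  -- the distance along the arc
  let f : ℂ → ℝ → ℝ := fun x t =>
    ε * D * (((z + cis (φ + ε * t)).re - x.re) ^ 2 + ((z + cis (φ + ε * t)).im - x.im) ^ 2 - 1)
  have hfc : ∀ x, Continuous (f x) := by
    intro x
    have h1 : Continuous fun t : ℝ => z + cis (φ + ε * t) :=
      continuous_const.add (continuous_cis.comp (by fun_prop))
    have h2 : Continuous fun t : ℝ => (z + cis (φ + ε * t)).re := Complex.continuous_re.comp h1
    have h3 : Continuous fun t : ℝ => (z + cis (φ + ε * t)).im := Complex.continuous_im.comp h1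
    show Continuous fun t => ε * D *
      (((z + cis (φ + ε * t)).re - x.re) ^ 2 + ((z + cis (φ + ε * t)).im - x.im) ^ 2 - 1)
    fun_prop
  have hder : HasDerivAt (f w) (-(2 * D ^ 2)) 0 := by
    have h1 := hasDerivAt_sq z w (φ + ε * 0)
    have h2 : HasDerivAt (fun t : ℝ => φ + ε * t) ε 0 := by
      simpa using ((hasDerivAt_id (0 : ℝ)).const_mul ε).const_add φ
    have h3 := (h1.comp (0 : ℝ) h2).const_mul (ε * D)
    refine h3.congr_deriv ?_
    have e : cr (cis (φ + ε * 0)) (z + cis (φ + ε * 0) - w) = -D := by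
      have e1 : z + cis (φ + ε * 0) - w = -cis ψ := by rw [hw, mul_zero, add_zero]; ring
      rw [e1, mul_zero, add_zero, hD, ← cr_cis, cr, cr]
      simp only [Complex.neg_re, Complex.neg_im]; ring
    rw [e]
    linear_combination (-2 * D ^ 2) * hε2
  have hf0 : f w 0 = 0 := by
    show ε * D * (((z + cis (φ + ε * 0)).re - w.re) ^ 2 +
      ((z + cis (φ + ε * 0)).im - w.im) ^ 2 - 1) = 0
    have h1 : dist (z + cis (φ + ε * 0)) w = 1 := by
      rw [hw, mul_zero, add_zero, dist_comm, dist_add_cis]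
    rw [(dist_eq_one_iff _ _).1 h1, mul_zero]
  have hneg : ∀ᶠ t in 𝓝[≠] (0 : ℝ), slope (f w) 0 t < 0 :=
    hder.tendsto_slope.eventually (gt_mem_nhds (by have := sq_pos_of_ne_zero hs; linarith))
  rw [eventually_nhdsWithin_iff, Metric.eventually_nhds_iff] at hneg
  obtain ⟨δ, hδ, hneg⟩ := hneg
  -- non-degenerate position
  have hnd : ∀ᶠ p : ℂ × ℝ in 𝓝 w ×ˢ 𝓝 (0 : ℝ), z + p.1 ≠ 2 * (z + cis (φ + ε * p.2)) := by
    rw [← nhds_prod_eq]
    have hc : Continuous fun p : ℂ × ℝ => z + p.1 - 2 * (z + cis (φ + ε * p.2)) := by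
      have h1 : Continuous fun p : ℂ × ℝ => cis (φ + ε * p.2) := continuous_cis.comp (by fun_prop)
      fun_prop
    have h1 : z + ((w, 0) : ℂ × ℝ).1 - 2 * (z + cis (φ + ε * ((w, 0) : ℂ × ℝ).2)) ≠ 0 := by
      intro h2
      simp only [mul_zero, add_zero] at h2
      exact cis_ne hs (by rw [hw] at h2; linear_combination -h2)
    filter_upwards [hc.continuousAt.eventually_ne h1] with p hp h2
    exact hp (sub_eq_zero.2 h2)
  obtain ⟨V, hV, I, hI, hVI⟩ := mem_prod_iff.1 hnd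
  obtain ⟨δ', hδ', hδI⟩ := Metric.mem_nhds_iff.1 hI
  set t1 := min (min δ δ') l / 2 with ht1
  have hm : 0 < min (min δ δ') l := lt_min (lt_min hδ hδ') hl
  have ht10 : 0 < t1 := by positivity
  have ht1δ : t1 < δ := by
    have := min_le_left (min δ δ') l
    have := min_le_left δ δ'
    linarith
  have ht1δ' : t1 < δ' := by
    have := min_le_left (min δ δ') l
    have := min_le_right δ δ'
    linarith
  have ht1l : t1 < l := by
    have := min_le_right (min δ δ') l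
    linarith
  have hft1 : f w t1 < 0 := by
    have h1 := hneg (y := t1) (by rw [Real.dist_eq, sub_zero, abs_of_pos ht10]; exact ht1δ)
      (by simp; linarith)
    rw [slope_def_field, hf0, sub_zero, sub_zero] at h1
    by_contra hcon
    push Not at hcon
    exact absurd h1 (not_lt.2 (div_nonneg hcon ht10.le))
  have hfx : ∀ᶠ x in 𝓝 w, f x t1 < 0 := by
    have hc : Continuous fun x : ℂ => f x t1 := by
      show Continuous fun x : ℂ => ε * D *
        (((z + cis (φ + ε * t1)).re - x.re) ^ 2 + ((z + cis (φ + ε * t1)).im - x.im) ^ 2 - 1)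
      fun_prop
    exact hc.continuousAt.eventually (gt_mem_nhds hft1)
  have hzw : ∀ᶠ x in 𝓝 w, z ≠ x := by
    have h1 : z ≠ w := fun h2 => cis_add_ne hs (by rw [hw] at h2; linear_combination -h2)
    filter_upwards [isOpen_ne.mem_nhds h1.symm] with x hx
    exact fun h2 => hx h2.symm
  filter_upwards [hV, hfx, hzw] with x hxV hx1 hxz hx0 i hi
  have hx0' : 0 < f x 0 := by
    show 0 < ε * D * (((z + cis (φ + ε * 0)).re - x.re) ^ 2 +
      ((z + cis (φ + ε * 0)).im - x.im) ^ 2 - 1)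
    rw [mul_zero, add_zero]
    have e : ((z + cis φ).re - x.re) ^ 2 + ((z + cis φ).im - x.im) ^ 2 - 1 =
      (x.re - (z + cis φ).re) ^ 2 + (x.im - (z + cis φ).im) ^ 2 - 1 := by ring
    rw [e]; exact hx0
  obtain ⟨t, ht, hft⟩ := intermediate_value_Icc' ht10.le (hfc x).continuousOn
    (show (0 : ℝ) ∈ Icc (f x t1) (f x 0) from ⟨hx1.le, hx0'.le⟩)
  have ht0 : 0 < t := by
    rcases ht.1.lt_or_eq with h1 | h1
    · exact h1
    · rw [← h1] at hft; linarith
  have htl : t < l := lt_of_le_of_lt ht.2 ht1l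
  have hd : dist (z + cis (φ + ε * t)) x = 1 := by
    rw [dist_eq_one_iff]
    exact (mul_eq_zero.1 hft).resolve_left hεD
  have hyz : dist (z + cis (φ + ε * t)) z = 1 := dist_add_cis z _
  refine h.mx.sweep_notMem (z := z) (q := z + cis (φ + ε * t)) (w := x) hyz (P := P) ?_
    (by rw [dist_comm]; exact hd) hxz ?_ hi
  · rw [eventually_circle hyz]
    filter_upwards [Ioo_mem_nhds (show -(min t (l - t)) < 0 by
      have := lt_min ht0 (sub_pos.2 htl); linarith)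
      (show 0 < min t (l - t) from lt_min ht0 (sub_pos.2 htl))] with s hs1
    have h5 := min_le_left t (l - t)
    have h6 := min_le_right t (l - t)
    have e : z + (z + cis (φ + ε * t) - z) * cis s = z + cis (φ + ε * (t + ε * s)) := by
      rw [add_sub_cancel_left, ← cis_add394]
      congr 2
      linear_combination (-s) * hε2
    rw [e]
    refine (hG _ ?_).trans (h.sub _)
    rcases hε with rfl | rfl
    · exact ⟨by linarith [hs1.1], by linarith [hs1.2]⟩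
    · exact ⟨by linarith [hs1.2], by linarith [hs1.1]⟩
  · have h1 : ((x, t) : ℂ × ℝ) ∈ V ×ˢ I := by
      refine ⟨hxV, hδI ?_⟩
      rw [mem_ball, Real.dist_eq, sub_zero, abs_of_pos ht0]
      exact lt_of_le_of_lt ht.2 ht1δ'
    exact hVI h1

/-- the unit circles about points near `v` avoid the colours of `X` near `w` -/
def Free (T : ℂ → Set (Fin 6)) (X : Set (Fin 6)) (v w : ℂ) : Prop :=
  ∃ V ∈ 𝓝 w, ∃ᶠ e in 𝓝 v, ∀ x ∈ V, dist x e = 1 → ∀ i ∈ X, i ∉ T x

/-- exact arcs accumulate at a heavy centre -/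
theorem acc_of_heavy (h : Irr U T) (hX : X.ncard = 3) {w p v' : ℂ} {s : Fin 6} (hTv : T v' = X)
    (hs : s ∈ X) (hw : dist w v' = 1) (hwX : X ⊆ T w) (hp : dist p v' = 1) (hsp : s ∈ T p)
    (h1 : p ≠ w) (h2 : p + w ≠ 2 * v') : Acc T w (X \ {s}) v' := by
  have h3 : (X \ {s}).ncard = 2 := by rw [Set.ncard_sdiff_singleton_of_mem hs, hX]
  rcases h.acc_or (q := w) (u := v') (r := s) (P := X \ {s})
    (by rw [hTv, Set.insert_sdiff_singleton, Set.insert_eq_of_mem hs])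
    (sdiff_subset.trans hwX) h3.le with h4 | h4
  · exact h4
  · rcases Stay.line h hw h4 hp hsp with h5 | h5
    · exact absurd h5 h1
    · exact absurd h5 h2

/-- exact arcs accumulate from one side -/
theorem acc_side {P : Set (Fin 6)} {w v' : ℂ} (hA : Acc T w P v') (hne : T v' ≠ P)
    (hwv : dist v' w = 1) : ∃ κ : ℝ, (κ = 1 ∨ κ = -1) ∧ ∃ᶠ e in 𝓝 v', dist e w = 1 ∧
      0 < κ * cr (v' - w) (e - v') ∧ ∀ᶠ g in 𝓝[sphere w 1] e, T g = P := by
  by_contra hcon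
  have h1 := not_frequently.1 (fun h0 => hcon ⟨1, Or.inl rfl, h0⟩)
  have h2 := not_frequently.1 (fun h0 => hcon ⟨-1, Or.inr rfl, h0⟩)
  have h3 : ∀ᶠ e in 𝓝 v', e + v' ≠ 2 * w := by
    have hc : Continuous fun e : ℂ => e + v' := by fun_prop
    refine hc.continuousAt.eventually (isOpen_ne.mem_nhds (x := v' + v') fun h4 => ?_)
    have h5 : v' = w := by linear_combination h4 / 2
    rw [h5, dist_self] at hwv
    exact zero_ne_one hwv
  obtain ⟨y, hy, hyw, hyP⟩ := hA _ (h1.and (h2.and h3))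
  obtain ⟨h4, h5, h6⟩ := hy
  have hTy : T y = P := hyP.self_of_nhdsWithin (show y ∈ sphere w 1 from hyw)
  have hyv : y ≠ v' := fun h7 => hne (h7 ▸ hTy)
  have h7 : cr (v' - w) (y - v') ≠ 0 := by
    intro h8
    have h9 : cr (v' - w) (y - w) = 0 := by
      rw [← h8]
      simp only [cr, Complex.sub_re, Complex.sub_im]; ring
    rcases cr_zero (by rw [← dist_eq_norm]; exact hwv) (by rw [← dist_eq_norm]; exact hyw) h9
      with h10 | h10
    · exact hyv (by linear_combination -h10)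
    · exact h6 (by linear_combination h10)
  rcases lt_or_gt_of_ne h7 with h8 | h8
  · exact h5 ⟨hyw, by linarith, hyP⟩
  · exact h4 ⟨hyw, by linarith, hyP⟩

theorem free_of (h : Irr U T) {s a : Fin 6} {φ ψ θ ε l κ : ℝ} (hl : 0 < l)
    (hε : ε = 1 ∨ ε = -1) (hG : ∀ t ∈ Ioo 0 l, T (z + cis (φ + ε * t)) = X \ {a})
    (hκ : ∃ᶠ e in 𝓝 (z + cis φ), dist e (z + cis φ + cis ψ) = 1 ∧
      0 < κ * cr (z + cis φ - (z + cis φ + cis ψ)) (e - (z + cis φ)) ∧
      ∀ᶠ g in 𝓝[sphere (z + cis φ + cis ψ) 1] e, T g = X \ {s}) (ha : a ∈ X \ {s})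
    (hs : 0 < (ε * Real.sin (θ - φ)) * (κ * -Real.sin (θ - ψ))) :
    Free T X (z + cis φ) (z + cis φ + cis θ) := by
  have hθφ : Real.sin (θ - φ) ≠ 0 := by
    intro h1; rw [h1] at hs; simp at hs
  have hθψ : Real.sin (θ - ψ) ≠ 0 := by
    intro h1; rw [h1] at hs; simp at hs
  set v' := z + cis φ with hv'
  set w := v' + cis ψ with hw
  have hc : cr (v' - w) (v' + cis θ - w) = -Real.sin (θ - ψ) := by
    rw [hw, ← cr_cis]
    simp only [cr, Complex.sub_re, Complex.sub_im, Complex.add_re, Complex.add_im]; ring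
  have hvw : dist v' w = 1 := by rw [hw, dist_comm, dist_add_cis]
  have S1 := side (w := w) (a := v') (x0 := v' + cis θ) hvw
    (by rw [hc]; exact neg_ne_zero.2 hθψ)
  have S2 : ∀ᶠ p : ℂ × ℂ in 𝓝 v' ×ˢ 𝓝 (v' + cis θ), w + p.2 ≠ 2 * p.1 := by
    rw [← nhds_prod_eq]
    have hcont : Continuous fun p : ℂ × ℂ => w + p.2 - 2 * p.1 := by fun_prop
    have h1 : w + ((v', v' + cis θ) : ℂ × ℂ).2 - 2 * ((v', v' + cis θ) : ℂ × ℂ).1 ≠ 0 := by
      intro h2
      simp only at h2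
      exact cis_add_ne hθψ (by rw [hw] at h2; linear_combination h2)
    filter_upwards [hcont.continuousAt.eventually_ne h1] with p hp h2
    exact hp (sub_eq_zero.2 h2)
  have S3 : ∀ᶠ x in 𝓝 (v' + cis θ), x ≠ w :=
    isOpen_ne.mem_nhds fun h1 => cis_ne hθψ (by rw [hw] at h1; linear_combination -h1)
  have S4 := gside (z := z) (φ := φ) (ψ := θ) (P := X \ {a}) h hl hε
    (fun t ht => (hG t ht).symm.subset) hθφ
  obtain ⟨E, hE, V, hV, hEV⟩ := mem_prod_iff.1 (S1.and S2)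
  refine ⟨V ∩ _, inter_mem hV (S3.and S4), ?_⟩
  refine (hκ.and_eventually hE).mono ?_
  rintro e ⟨⟨hew, heκ, heP⟩, heE⟩ x ⟨hxV, hxw, hx4⟩ hxe i hi hiT
  obtain ⟨g1, g2⟩ := hEV (show ((e, x) : ℂ × ℂ) ∈ E ×ˢ V from ⟨heE, hxV⟩)
  by_cases hia : i = a
  · subst hia
    exact h.mx.sweep_notMem (z := w) (q := e) (w := x) hew (P := X \ {s})
      (heP.mono fun g hg j hj => h.sub g (by rw [hg]; exact hj)) hxe (Ne.symm hxw) g2 ha
      (h.sub x hiT)
  · refine hx4 ?_ i ⟨hi, hia⟩ (h.sub x hiT)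
    have h1 := g1 hew hxe κ heκ
    rw [hc] at h1
    simp only at h1
    have h2 := mul_pos h1 hs
    have e1 : κ * -Real.sin (θ - ψ) * ((x.re - v'.re) ^ 2 + (x.im - v'.im) ^ 2 - 1) *
        (ε * Real.sin (θ - φ) * (κ * -Real.sin (θ - ψ))) =
        (ε * Real.sin (θ - φ) * ((x.re - v'.re) ^ 2 + (x.im - v'.im) ^ 2 - 1)) *
          (κ * -Real.sin (θ - ψ)) ^ 2 := by ring
    rw [e1] at h2
    exact pos_of_mul_pos_left h2 (sq_nonneg _)

/-- `z + cis φ` has the palette `X` and is an end of an exact pair arc -/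
def Ep (T : ℂ → Set (Fin 6)) (z : ℂ) (X : Set (Fin 6)) (φ : ℝ) : Prop :=
  T (z + cis φ) = X ∧ ∃ a ∈ X, ∃ ε l : ℝ, (ε = 1 ∨ ε = -1) ∧ 0 < l ∧
    ∀ t ∈ Ioo 0 l, T (z + cis (φ + ε * t)) = X \ {a}

theorem exists_ne_of_three (hX : X.ncard = 3) (a : Fin 6) : ∃ s ∈ X, s ≠ a := by
  by_contra hcon
  push Not at hcon
  have h1 : X ⊆ {a} := fun s hs => hcon s hs
  have h2 := Set.ncard_le_ncard h1 (Set.toFinite _)
  rw [hX, Set.ncard_singleton] at h2
  omega

/-- the rows on one side of a heavy centre are free -/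
theorem dich (h : Irr U T) (hX : X.ncard = 3) {φ ψ s0 : ℝ} (hz : T z = univ) (E : Ep T z X φ)
    (hw : T (z + cis φ + cis ψ) = univ) (hψ : 0 < s0 * Real.sin (ψ - φ)) {I : Set ℝ}
    (hI : ∀ θ ∈ I, 0 < s0 * Real.sin (θ - φ)) (hI2 : ∀ θ ∈ I, |θ - ψ| < Real.pi) :
    (∀ θ ∈ I, θ < ψ → Free T X (z + cis φ) (z + cis φ + cis θ)) ∨
      (∀ θ ∈ I, ψ < θ → Free T X (z + cis φ) (z + cis φ + cis θ)) := by
  obtain ⟨hTv, a, ha, ε, l, hε, hl, hG⟩ := E
  have hψ0 : Real.sin (ψ - φ) ≠ 0 := by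
    intro h1; rw [h1] at hψ; simp at hψ
  obtain ⟨s, hs, hsa⟩ := exists_ne_of_three hX a
  have hA : Acc T (z + cis φ + cis ψ) (X \ {s}) (z + cis φ) := by
    refine acc_of_heavy h hX hTv hs (dist_add_cis _ _) (by rw [hw]; exact subset_univ _)
      (p := z) (by rw [dist_comm]; exact dist_add_cis _ _) (by rw [hz]; trivial) ?_ ?_
    · intro h1
      exact cis_add_ne hψ0 (by linear_combination -h1)
    · intro h1
      exact cis_ne hψ0 (by linear_combination -h1)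
  have hne : T (z + cis φ) ≠ X \ {s} := by
    intro h1
    have h2 : s ∈ X \ {s} := by rw [← h1, hTv]; exact hs
    exact h2.2 rfl
  obtain ⟨κ, hκ, hκe⟩ := acc_side hA hne (by rw [dist_comm, dist_add_cis])
  have ha' : a ∈ X \ {s} := ⟨ha, fun h1 => hsa (by rw [mem_singleton_iff] at h1; exact h1.symm)⟩
  have hκ0 : ε * κ * s0 ≠ 0 := by
    have h1 : s0 ≠ 0 := by
      intro h1; rw [h1] at hψ; simp at hψ
    have h2 : ε ≠ 0 := by rcases hε with rfl | rfl <;> norm_num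
    have h3 : κ ≠ 0 := by rcases hκ with rfl | rfl <;> norm_num
    exact mul_ne_zero (mul_ne_zero h2 h3) h1
  have hs0 : 0 < s0 ^ 2 := by
    refine sq_pos_of_ne_zero fun h1 => ?_
    rw [h1, mul_zero] at hκ0; exact hκ0 rfl
  rcases lt_or_gt_of_ne hκ0 with h1 | h1
  · right
    intro θ hθ hlt
    refine free_of h hl hε hG hκe ha' ?_
    have h2 : 0 < Real.sin (θ - ψ) :=
      Real.sin_pos_of_pos_of_lt_pi (by linarith) (lt_of_abs_lt (hI2 θ hθ))
    have h3 := mul_pos (mul_pos (neg_pos.2 h1) (hI θ hθ)) h2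
    have e : -(ε * κ * s0) * (s0 * Real.sin (θ - φ)) * Real.sin (θ - ψ) =
      (ε * Real.sin (θ - φ) * (κ * -Real.sin (θ - ψ))) * s0 ^ 2 := by ring
    rw [e] at h3
    exact pos_of_mul_pos_left h3 hs0.le
  · left
    intro θ hθ hlt
    refine free_of h hl hε hG hκe ha' ?_
    have h2 : Real.sin (θ - ψ) < 0 :=
      Real.sin_neg_of_neg_of_neg_pi_lt (by linarith) (neg_lt_of_abs_lt (hI2 θ hθ))
    have h3 := mul_pos (mul_pos h1 (hI θ hθ)) (neg_pos.2 h2)
    have e : ε * κ * s0 * (s0 * Real.sin (θ - φ)) * -Real.sin (θ - ψ) =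
      (ε * Real.sin (θ - φ) * (κ * -Real.sin (θ - ψ))) * s0 ^ 2 := by ring
    rw [e] at h3
    exact pos_of_mul_pos_left h3 hs0.le

/-- two free families cross in a point without colours -/
theorem free_false (h : Irr U T) {φ ψ : ℝ} (hs : Real.sin (ψ - φ) ≠ 0)
    (h1 : Free T X (z + cis φ) (z + cis φ + cis ψ))
    (h2 : Free T Xᶜ (z + cis ψ) (z + cis ψ + cis φ)) : False := by
  obtain ⟨V, hV, h1⟩ := h1
  obtain ⟨V', hV', h2⟩ := h2
  have e1 : z + cis φ + cis ψ = z + cis φ + (z + cis ψ) - z := by ring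
  have e2 : z + cis ψ + cis φ = z + cis φ + (z + cis ψ) - z := by ring
  rw [e1] at hV
  rw [e2] at hV'
  obtain ⟨E, hE, E', hE', hm⟩ := meet (z := z) (v' := z + cis φ) (q' := z + cis ψ)
    (dist_add_cis _ _) (dist_add_cis _ _) (fun h3 => cis_ne hs (by linear_combination h3))
    (fun h3 => cis_add_ne hs (by linear_combination h3)) (inter_mem hV hV')
  obtain ⟨e, he, heE⟩ := (h1.and_eventually hE).exists
  obtain ⟨e', he', heE'⟩ := (h2.and_eventually hE').exists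
  obtain ⟨x, ⟨hxV, hxV'⟩, hxe, hxe'⟩ := hm e heE e' heE'
  obtain ⟨i, hi⟩ := h.ne x
  by_cases hiX : i ∈ X
  · exact he x hxV hxe i hiX hi
  · exact he' x hxV' hxe' i hiX hi

/-- ends of exact arcs accumulate at a wild vertex -/
theorem ends (h : Irr U T) (hX : X.ncard = 3) {φ0 : ℝ} (hz : T z = univ)
    (hTv : T (z + cis φ0) = X) (hA : ∀ s ∈ X, Acc T z (X \ {s}) (z + cis φ0)) :
    ∃ o : ℝ, (o = 1 ∨ o = -1) ∧ ∀ η > 0, ∃ τ, 0 < τ ∧ τ < η ∧ Ep T z X (φ0 + o * τ) := by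
  have h2c : ∀ s ∈ X, (X \ {s}).ncard = 2 := fun s hs => by
    rw [Set.ncard_sdiff_singleton_of_mem hs, hX]
  -- angles of exact arcs
  have key : ∀ s ∈ X, ∃ o : ℝ, (o = 1 ∨ o = -1) ∧ ∀ η > 0, ∃ τ, 0 < τ ∧ τ < η ∧
      ∀ᶠ g in 𝓝[sphere z 1] (z + cis (φ0 + o * τ)), T g = X \ {s} := by
    intro s hs
    by_contra hcon
    have g : ∀ o : ℝ, (o = 1 ∨ o = -1) → ∃ η > 0, ∀ τ : ℝ, 0 < τ → τ < η →
        ¬ ∀ᶠ g in 𝓝[sphere z 1] (z + cis (φ0 + o * τ)), T g = X \ {s} := by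
      intro o ho
      by_contra h1
      refine hcon ⟨o, ho, fun η hη => ?_⟩
      by_contra h2
      exact h1 ⟨η, hη, fun τ h3 h4 h5 => h2 ⟨τ, h3, h4, h5⟩⟩
    obtain ⟨η1, hη1, g1⟩ := g 1 (Or.inl rfl)
    obtain ⟨η2, hη2, g2⟩ := g (-1) (Or.inr rfl)
    have hev : ∀ᶠ y in 𝓝[sphere z 1] (z + cis φ0),
        ¬ ∀ᶠ g in 𝓝[sphere z 1] y, T g = X \ {s} := by
      rw [eventually_circle (dist_add_cis _ _)]
      filter_upwards [Ioo_mem_nhds (show -η2 < 0 by linarith) hη1] with t ht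
      have e : z + (z + cis φ0 - z) * cis t = z + cis (φ0 + t) := by
        rw [add_sub_cancel_left, ← cis_add394]
      rw [e]
      rcases lt_trichotomy t 0 with h3 | h3 | h3
      · have := g2 (-t) (by linarith) (by linarith [ht.1])
        rw [show φ0 + -1 * -t = φ0 + t by ring] at this
        exact this
      · rw [h3, add_zero]
        intro h4
        have h5 := h4.self_of_nhdsWithin (show z + cis φ0 ∈ sphere z 1 from dist_add_cis _ _)
        rw [hTv] at h5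
        have h6 : s ∈ X \ {s} := h5 ▸ hs
        exact h6.2 rfl
      · have := g1 t h3 ht.2
        rw [one_mul] at this
        exact this
    obtain ⟨W, hW, hWs⟩ := mem_nhdsWithin_iff_exists_mem_nhds_inter.1 hev
    obtain ⟨y, hy, hyz, hyP⟩ := hA s hs W hW
    exact hWs ⟨hy, hyz⟩ hyP
  -- two colours on one side
  obtain ⟨a, b, c, hab, hac, hbc, hXe⟩ := Set.ncard_eq_three.1 hX
  have haX : a ∈ X := by rw [hXe]; simp
  have hbX : b ∈ X := by rw [hXe]; simp
  have hcX : c ∈ X := by rw [hXe]; simp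
  obtain ⟨o, s, s', hs, hs', hss, ho, k1, k2⟩ : ∃ o : ℝ, ∃ s s' : Fin 6, s ∈ X ∧ s' ∈ X ∧ s ≠ s' ∧
      (o = 1 ∨ o = -1) ∧ (∀ η > 0, ∃ τ, 0 < τ ∧ τ < η ∧
        ∀ᶠ g in 𝓝[sphere z 1] (z + cis (φ0 + o * τ)), T g = X \ {s}) ∧
      (∀ η > 0, ∃ τ, 0 < τ ∧ τ < η ∧
        ∀ᶠ g in 𝓝[sphere z 1] (z + cis (φ0 + o * τ)), T g = X \ {s'}) := by
    obtain ⟨oa, hoa, ka⟩ := key a haX
    obtain ⟨ob, hob, kb⟩ := key b hbX
    obtain ⟨oc, hoc, kc⟩ := key c hcX
    rcases hoa with rfl | rfl <;> rcases hob with rfl | rfl <;> rcases hoc with rfl | rfl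
    · exact ⟨1, a, b, haX, hbX, hab, Or.inl rfl, ka, kb⟩
    · exact ⟨1, a, b, haX, hbX, hab, Or.inl rfl, ka, kb⟩
    · exact ⟨1, a, c, haX, hcX, hac, Or.inl rfl, ka, kc⟩
    · exact ⟨-1, b, c, hbX, hcX, hbc, Or.inr rfl, kb, kc⟩
    · exact ⟨1, b, c, hbX, hcX, hbc, Or.inl rfl, kb, kc⟩
    · exact ⟨-1, a, c, haX, hcX, hac, Or.inr rfl, ka, kc⟩
    · exact ⟨-1, a, b, haX, hbX, hab, Or.inr rfl, ka, kb⟩
    · exact ⟨-1, a, b, haX, hbX, hab, Or.inr rfl, ka, kb⟩
  refine ⟨o, ho, fun η hη => ?_⟩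
  have ho2 : o * o = 1 := by rcases ho with rfl | rfl <;> norm_num
  -- near the vertex
  have hnear : ∀ᶠ t in 𝓝 (0 : ℝ), T (z + cis (φ0 + o * t)) ⊆ X := by
    have h1 : Continuous fun t : ℝ => z + cis (φ0 + o * t) :=
      continuous_const.add (continuous_cis.comp (by fun_prop))
    have h2 := h.nhd (z + cis φ0)
    have h3 := h1.tendsto 0
    simp only [mul_zero, add_zero] at h3
    have h4 := h3.eventually h2
    rw [hTv] at h4
    exact h4
  obtain ⟨δ, hδ, hnear⟩ := Metric.eventually_nhds_iff.1 hnear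
  obtain ⟨τ, hτ0, hτ1, hτP⟩ := k1 (min η δ) (lt_min hη hδ)
  obtain ⟨τ', hτ'0, hτ'1, hτ'P⟩ := k2 τ hτ0
  have hself : ∀ {t : ℝ} {r : Fin 6}, (∀ᶠ g in 𝓝[sphere z 1] (z + cis (φ0 + o * t)),
      T g = X \ {r}) → T (z + cis (φ0 + o * t)) = X \ {r} := fun hg =>
    hg.self_of_nhdsWithin (show _ ∈ sphere z 1 from dist_add_cis _ _)
  obtain ⟨ε, hε, hεP⟩ : ∃ ε > 0, ∀ t ∈ Ioo 0 ε, T (z + cis (φ0 + o * τ - o * t)) = X \ {s} := by
    rw [eventually_circle (dist_add_cis _ _)] at hτP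
    obtain ⟨ε, hε, hball⟩ := Metric.eventually_nhds_iff.1 hτP
    refine ⟨ε, hε, fun t ht => ?_⟩
    have h1 := hball (y := -(o * t)) (by
      rw [Real.dist_eq, sub_zero, abs_neg, abs_mul, abs_of_pos ht.1]
      rcases ho with rfl | rfl
      · rw [abs_one, one_mul]; exact ht.2
      · rw [abs_neg, abs_one, one_mul]; exact ht.2)
    rw [add_sub_cancel_left, ← cis_add394] at h1
    rw [sub_eq_add_neg]; exact h1
  obtain ⟨l, hl0, -, -, hlt, hss2⟩ := h.exists_arc (z := z) (P := X \ {s}) (θ := φ0 + o * τ) ho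
    (h2c s hs) (by rw [hz]; exact subset_univ _) hε hεP
  have hlτ : l ≤ τ - τ' := by
    by_contra hcon
    push Not at hcon
    have h1 := hlt (τ - τ') ⟨by linarith, hcon⟩
    rw [show φ0 + o * τ - o * (τ - τ') = φ0 + o * τ' by ring, hself hτ'P] at h1
    have h2 : s ∈ X \ {s'} := ⟨hs, hss⟩
    rw [h1] at h2
    exact h2.2 rfl
  refine ⟨τ - l, by linarith, by linarith [min_le_left η δ], ?_⟩
  have e0 : φ0 + o * τ - o * l = φ0 + o * (τ - l) := by ring
  rw [e0] at hss2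
  have hsubX : T (z + cis (φ0 + o * (τ - l))) ⊆ X := by
    refine hnear ?_
    rw [Real.dist_eq, sub_zero, abs_of_pos (by linarith)]
    linarith [min_le_right η δ]
  refine ⟨?_, s, hs, o, l, ho, hl0, fun t ht => ?_⟩
  · refine Set.eq_of_subset_of_ncard_le hsubX ?_ (Set.toFinite _)
    have h1 := Set.ncard_lt_ncard hss2 (Set.toFinite _)
    rw [h2c s hs] at h1
    rw [hX]; exact h1
  · have h1 := hlt (l - t) ⟨by linarith [ht.2], by linarith [ht.1]⟩
    rw [show φ0 + o * (τ - l) + o * t = φ0 + o * τ - o * (l - t) by ring]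
    exact h1

/-- five of them, in order -/
theorem five_pts {E : ℝ → Prop} {φ0 o : ℝ} (ho : o = 1 ∨ o = -1)
    (H : ∀ η > 0, ∃ τ, 0 < τ ∧ τ < η ∧ E (φ0 + o * τ)) {η : ℝ} (hη : 0 < η) :
    ∃ a b c d e : ℝ, a < b ∧ b < c ∧ c < d ∧ d < e ∧ |a - φ0| < η ∧ |b - φ0| < η ∧
      |c - φ0| < η ∧ |d - φ0| < η ∧ |e - φ0| < η ∧ E a ∧ E b ∧ E c ∧ E d ∧ E e := by
  obtain ⟨t5, a5, b5, c5⟩ := H η hη
  obtain ⟨t4, a4, b4, c4⟩ := H t5 a5
  obtain ⟨t3, a3, b3, c3⟩ := H t4 a4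
  obtain ⟨t2, a2, b2, c2⟩ := H t3 a3
  obtain ⟨t1, a1, b1, c1⟩ := H t2 a2
  have hab : ∀ t : ℝ, 0 < t → t < η → |φ0 + o * t - φ0| < η := by
    intro t h1 h2
    rw [add_sub_cancel_left, abs_mul, abs_of_pos h1]
    rcases ho with rfl | rfl
    · rw [abs_one, one_mul]; exact h2
    · rw [abs_neg, abs_one, one_mul]; exact h2
  have w5 := hab t5 a5 b5
  have w4 := hab t4 a4 (by linarith)
  have w3 := hab t3 a3 (by linarith)
  have w2 := hab t2 a2 (by linarith)
  have w1 := hab t1 a1 (by linarith)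
  rcases ho with rfl | rfl
  · exact ⟨_, _, _, _, _, by linarith, by linarith, by linarith, by linarith, w1, w2, w3, w4, w5,
      c1, c2, c3, c4, c5⟩
  · exact ⟨_, _, _, _, _, by linarith, by linarith, by linarith, by linarith, w5, w4, w3, w2, w1,
      c5, c4, c3, c2, c1⟩

theorem count {F11 F13 F15 F31 F33 F35 G11 G31 G13 G33 G15 G35 : Prop}
    (r1 : G11 ∨ G31) (r3 : G13 ∨ G33) (r5 : G15 ∨ G35)
    (c1 : (F11 ∨ (F13 ∧ F15)) ∧ ((F11 ∧ F13) ∨ F15))
    (c3 : (F31 ∨ (F33 ∧ F35)) ∧ ((F31 ∧ F33) ∨ F35))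
    (n11 : F11 → G11 → False) (n13 : F13 → G13 → False) (n15 : F15 → G15 → False)
    (n31 : F31 → G31 → False) (n33 : F33 → G33 → False) (n35 : F35 → G35 → False) : False := by
  rcases c1 with ⟨h1 | ⟨h1, h2⟩, ⟨h3, h4⟩ | h3⟩ <;>
  rcases c3 with ⟨k1 | ⟨k1, k2⟩, ⟨k3, k4⟩ | k3⟩ <;>
  rcases r1 with r1 | r1 <;> rcases r3 with r3 | r3 <;> rcases r5 with r5 | r5 <;>
  first
  | exact n11 (by assumption) (by assumption)
  | exact n13 (by assumption) (by assumption)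
  | exact n15 (by assumption) (by assumption)
  | exact n31 (by assumption) (by assumption)
  | exact n33 (by assumption) (by assumption)
  | exact n35 (by assumption) (by assumption)

/-- **The wild heavy case.** -/
theorem heavy_false (h : Irr U T) (hz : T z = univ) (N : Nd T X z v q)
    (H : ∀ v' q', Nd T X z v' q' → T (v' + q' - z) = univ) : False := by
  obtain ⟨φ0, hφ0⟩ := exists_cis (u := v - z) (by rw [← dist_eq_norm, dist_comm]; exact N.dv)
  obtain ⟨ψ0, hψ0⟩ := exists_cis (u := q - z) (by rw [← dist_eq_norm, dist_comm]; exact N.dq)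
  have hv : v = z + cis φ0 := by rw [← hφ0]; ring
  have hq : q = z + cis ψ0 := by rw [← hψ0]; ring
  set s0 := Real.sin (ψ0 - φ0) with hs0
  have hs0ne : s0 ≠ 0 := by
    rw [hs0, ← cr_cis, ← hφ0, ← hψ0]
    have h1 := cr_ne (z := z) (c := v) (q := q) N.dv N.dq N.ne N.op
    have e : cr (v - z) (q - z) = cr (z - v) (z - q) := by
      simp only [cr, Complex.sub_re, Complex.sub_im]; ring
    rw [e]; exact h1
  have hX := N.hX
  have hXc := N.hXc
  have hTv : T (z + cis φ0) = X := by rw [← hv]; exact N.Tv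
  have hTq : T (z + cis ψ0) = Xᶜ := by rw [← hq]; exact N.Tq
  have hw : T (v + q - z) = univ := H v q N
  -- windows
  obtain ⟨η, hη, hη1, hwin⟩ : ∃ η > 0, η ≤ 1 ∧ ∀ φ ψ : ℝ, |φ - φ0| < η → |ψ - ψ0| < η →
      0 < s0 * Real.sin (ψ - φ) := by
    have hc : Continuous fun p : ℝ × ℝ => s0 * Real.sin (p.2 - p.1) := by fun_prop
    have h1 : ∀ᶠ p : ℝ × ℝ in 𝓝 (φ0, ψ0), 0 < s0 * Real.sin (p.2 - p.1) :=
      hc.continuousAt.eventually (lt_mem_nhds (mul_self_pos.2 hs0ne))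
    obtain ⟨η, hη, hball⟩ := Metric.eventually_nhds_iff.1 h1
    refine ⟨min η 1, lt_min hη one_pos, min_le_right _ _, fun φ ψ h2 h3 => ?_⟩
    refine hball (y := (φ, ψ)) ?_
    rw [Prod.dist_eq]
    exact max_lt (lt_of_lt_of_le h2 (min_le_left _ _)) (lt_of_lt_of_le h3 (min_le_left _ _))
  -- ends on both arcs
  have hAv : ∀ s ∈ X, Acc T z (X \ {s}) (z + cis φ0) := fun s hs => by
    rw [← hv]
    exact acc_of_heavy h hX N.Tv hs N.dv (by rw [hz]; exact subset_univ _)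
      N.other.dv (by rw [hw]; trivial) N.ne_other N.off_other
  have hAq : ∀ s ∈ Xᶜ, Acc T z (Xᶜ \ {s}) (z + cis ψ0) := fun s hs => by
    rw [← hq]
    exact acc_of_heavy h hXc N.Tq hs N.dq (by rw [hz]; exact subset_univ _)
      N.other.dq (by rw [hw]; trivial) N.ne_other
      (fun h1 => N.ne (by linear_combination h1))
  obtain ⟨o, ho, hE⟩ := ends h hX hz hTv hAv
  obtain ⟨o', ho', hE'⟩ := ends h hXc hz hTq hAq
  obtain ⟨a1, a2, a3, -, -, ha12, ha23, -, -, wa1, wa2, wa3, -, -, Ea1, Ea2, Ea3, -, -⟩ :=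
    five_pts ho hE hη
  obtain ⟨b1, b2, b3, b4, b5, hb12, hb23, hb34, hb45, wb1, wb2, wb3, wb4, wb5, Eb1, Eb2, Eb3, Eb4,
    Eb5⟩ := five_pts ho' hE' hη
  -- all centres are heavy
  have heavy : ∀ φ ψ : ℝ, |φ - φ0| < η → |ψ - ψ0| < η → T (z + cis φ) = X →
      T (z + cis ψ) = Xᶜ → T (z + cis φ + cis ψ) = univ := by
    intro φ ψ h1 h2 h3 h4
    have h5 : Real.sin (ψ - φ) ≠ 0 := by
      intro h6
      have := hwin φ ψ h1 h2
      rw [h6, mul_zero] at this
      exact lt_irrefl _ this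
    have h6 := H (z + cis φ) (z + cis ψ) ⟨hX, by rw [dist_comm]; exact dist_add_cis _ _,
      by rw [dist_comm]; exact dist_add_cis _ _, h3, h4,
      fun h7 => cis_add_ne h5 (by linear_combination h7)⟩
    rw [show z + cis φ + (z + cis ψ) - z = z + cis φ + cis ψ by ring] at h6
    exact h6
  have hwin' : ∀ ψ φ : ℝ, |ψ - ψ0| < η → |φ - φ0| < η → 0 < -s0 * Real.sin (φ - ψ) := by
    intro ψ φ h1 h2
    have h3 := hwin φ ψ h2 h1
    have h4 : Real.sin (φ - ψ) = -Real.sin (ψ - φ) := by rw [← Real.sin_neg]; congr 1; ring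
    rw [h4]; linarith
  have hpi := Real.pi_gt_three
  have hpiI : ∀ {c x y : ℝ}, |x - c| < η → |y - c| < η → |x - y| < Real.pi := by
    intro c x y h1 h2
    rw [abs_lt] at h1 h2 ⊢
    constructor <;> linarith [h1.1, h1.2, h2.1, h2.2]
  -- the two dichotomies
  have dA : ∀ φ ψ : ℝ, |φ - φ0| < η → |ψ - ψ0| < η → Ep T z X φ → T (z + cis ψ) = Xᶜ →
      (∀ θ ∈ {θ : ℝ | |θ - ψ0| < η}, θ < ψ → Free T X (z + cis φ) (z + cis φ + cis θ)) ∨
      (∀ θ ∈ {θ : ℝ | |θ - ψ0| < η}, ψ < θ → Free T X (z + cis φ) (z + cis φ + cis θ)) :=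
    fun φ ψ h1 h2 h3 h4 => dich h hX hz h3 (heavy φ ψ h1 h2 h3.1 h4) (hwin φ ψ h1 h2)
      (fun θ hθ => hwin φ θ h1 hθ) (fun θ hθ => hpiI hθ h2)
  have dD : ∀ ψ φ : ℝ, |ψ - ψ0| < η → |φ - φ0| < η → Ep T z Xᶜ ψ → T (z + cis φ) = X →
      (∀ θ ∈ {θ : ℝ | |θ - φ0| < η}, θ < φ → Free T Xᶜ (z + cis ψ) (z + cis ψ + cis θ)) ∨
      (∀ θ ∈ {θ : ℝ | |θ - φ0| < η}, φ < θ → Free T Xᶜ (z + cis ψ) (z + cis ψ + cis θ)) :=
    fun ψ φ h1 h2 h3 h4 => dich h hXc hz h3
      (by rw [show z + cis ψ + cis φ = z + cis φ + cis ψ by ring]; exact heavy φ ψ h2 h1 h4 h3.1)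
      (hwin' ψ φ h1 h2) (fun θ hθ => hwin' ψ θ h1 hθ) (fun θ hθ => hpiI hθ h2)
  -- crossing
  have hno : ∀ φ ψ : ℝ, |φ - φ0| < η → |ψ - ψ0| < η → Free T X (z + cis φ) (z + cis φ + cis ψ) →
      Free T Xᶜ (z + cis ψ) (z + cis ψ + cis φ) → False := by
    intro φ ψ h1 h2 h3 h4
    refine free_false h (fun h5 => ?_) h3 h4
    have := hwin φ ψ h1 h2
    rw [h5, mul_zero] at this
    exact lt_irrefl _ this
  -- rows b1, b3, b5: one of the columns a1, a3 is free
  have r1 : Free T Xᶜ (z + cis b1) (z + cis b1 + cis a1) ∨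
      Free T Xᶜ (z + cis b1) (z + cis b1 + cis a3) :=
    (dD b1 a2 wb1 wa2 Eb1 Ea2.1).imp (fun k => k a1 wa1 ha12) fun k => k a3 wa3 ha23
  have r3 : Free T Xᶜ (z + cis b3) (z + cis b3 + cis a1) ∨
      Free T Xᶜ (z + cis b3) (z + cis b3 + cis a3) :=
    (dD b3 a2 wb3 wa2 Eb3 Ea2.1).imp (fun k => k a1 wa1 ha12) fun k => k a3 wa3 ha23
  have r5 : Free T Xᶜ (z + cis b5) (z + cis b5 + cis a1) ∨
      Free T Xᶜ (z + cis b5) (z + cis b5 + cis a3) :=
    (dD b5 a2 wb5 wa2 Eb5 Ea2.1).imp (fun k => k a1 wa1 ha12) fun k => k a3 wa3 ha23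
  -- columns
  have col : ∀ a : ℝ, |a - φ0| < η → Ep T z X a →
      (Free T X (z + cis a) (z + cis a + cis b1) ∨
        (Free T X (z + cis a) (z + cis a + cis b3) ∧ Free T X (z + cis a) (z + cis a + cis b5))) ∧
      ((Free T X (z + cis a) (z + cis a + cis b1) ∧ Free T X (z + cis a) (z + cis a + cis b3)) ∨
        Free T X (z + cis a) (z + cis a + cis b5)) := by
    intro a wa Ea
    exact ⟨(dA a b2 wa wb2 Ea Eb2.1).imp (fun k => k b1 wb1 hb12)
        fun k => ⟨k b3 wb3 hb23, k b5 wb5 (by linarith)⟩,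
      (dA a b4 wa wb4 Ea Eb4.1).imp (fun k => ⟨k b1 wb1 (by linarith), k b3 wb3 hb34⟩)
        fun k => k b5 wb5 hb45⟩
  have c1 := col a1 wa1 Ea1
  have c3 := col a3 wa3 Ea3
  exact count r1 r3 r5 c1 c3 (hno a1 b1 wa1 wb1) (hno a1 b3 wa1 wb3) (hno a1 b5 wa1 wb5)
    (hno a3 b1 wa3 wb1) (hno a3 b3 wa3 wb3) (hno a3 b5 wa3 wb5)

end Vale.Agent.P032.S5.H410
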