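import Mathlib

/-!
# Minimal closed covers

`exists_lab` : locally constant labels on a locally closed totally disconnected set of the plane.
`exists_pure` : a minimal closed subcover of a finite closed cover.
`exists_min_cover` : a closed cover whose palettes with more than three colours are minimal among
the locally sufficient palettes.
-/

open Set Filter Topology Metric

noncomputable section

namespace Vale.Agent.P032.S5.H410

/-- **labels** -/
theorem exists_lab {D : Set ℂ} (hD : IsLocallyClosed D) (hd : IsTotallyDisconnected D)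
    (r : ℂ → ℝ) (hr : ∀ x ∈ D, 0 < r x) : ∃ lab : ℂ → ℂ,
      (∀ d ∈ D, lab d ∈ D ∧ dist d (lab d) < r (lab d)) ∧
        ∀ d ∈ D, ∀ᶠ d' in 𝓝 d, d' ∈ D → lab d' = lab d := by
  classical
  have : LocallyCompactSpace D := hD.locallyCompactSpace
  have : TotallyDisconnectedSpace D := totallyDisconnectedSpace_subtype_iff.2 hd
  have hb : ∀ x : D, ∃ C : Set D, IsClopen C ∧ x ∈ C ∧ C ⊆ {y : D | dist (y : ℂ) x < r x} := by
    intro x
    have hO : IsOpen {y : D | dist (y : ℂ) x < r x} :=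
      isOpen_lt (continuous_subtype_val.dist continuous_const) continuous_const
    obtain ⟨C, hC, hxC, hCs⟩ := (loc_compact_Haus_tot_disc_of_zero_dim (H := D)).mem_nhds_iff.1
      (hO.mem_nhds (show dist (x : ℂ) x < r x by rw [dist_self]; exact hr x x.2))
    exact ⟨C, hC, hxC, hCs⟩
  choose C hC hxC hCs using hb
  obtain ⟨S, hS, hSu⟩ := TopologicalSpace.countable_cover_nhds
    (f := C) fun x => (hC x).isOpen.mem_nhds (hxC x)
  rcases D.eq_empty_or_nonempty with hDe | ⟨d₀, hd₀⟩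
  · subst hDe
    exact ⟨fun x => x, fun d hd => absurd hd (notMem_empty d), fun d hd => absurd hd (notMem_empty d)⟩
  have hSne : S.Nonempty := by
    have h1 : (⟨d₀, hd₀⟩ : D) ∈ ⋃ x ∈ S, C x := by rw [hSu]; exact mem_univ _
    obtain ⟨x, hx, -⟩ := mem_iUnion₂.1 h1
    exact ⟨x, hx⟩
  obtain ⟨f, rfl⟩ := hS.exists_eq_range hSne
  have hex : ∀ d : D, ∃ n, d ∈ C (f n) := by
    intro d
    have h1 : d ∈ ⋃ x ∈ range f, C x := by rw [hSu]; exact mem_univ _
    obtain ⟨x, ⟨n, rfl⟩, hx⟩ := mem_iUnion₂.1 h1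
    exact ⟨n, hx⟩
  refine ⟨fun d => if h : d ∈ D then (f (Nat.find (hex ⟨d, h⟩)) : ℂ) else d, fun d hd => ?_,
    fun d hd => ?_⟩
  · simp only [dif_pos hd]
    exact ⟨(f _).2, hCs _ (Nat.find_spec (hex ⟨d, hd⟩))⟩
  · set n := Nat.find (hex ⟨d, hd⟩) with hn
    have h1 : ∀ᶠ d' in 𝓝 (⟨d, hd⟩ : D), d' ∈ C (f n) :=
      (hC _).isOpen.mem_nhds (Nat.find_spec (hex ⟨d, hd⟩))
    have h2 : ∀ᶠ d' in 𝓝 (⟨d, hd⟩ : D), ∀ m ∈ Finset.range n, d' ∉ C (f m) := by
      rw [Filter.eventually_all_finset]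
      intro m hm
      exact (hC _).compl.isOpen.mem_nhds (Nat.find_min (hex ⟨d, hd⟩) (Finset.mem_range.1 hm))
    have h3 : ∀ᶠ d' in 𝓝 (⟨d, hd⟩ : D), Nat.find (hex d') = n := by
      filter_upwards [h1, h2] with d' h4 h5
      rw [Nat.find_eq_iff]
      exact ⟨h4, fun m hm => h5 m (Finset.mem_range.2 hm)⟩
    rw [nhds_subtype_eq_comap, eventually_comap] at h3
    filter_upwards [h3] with d' h4 hd'
    have h5 := h4 ⟨d', hd'⟩ rfl
    simp only [dif_pos hd', dif_pos hd]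
    rw [h5]

/-- **a minimal closed subcover** -/
theorem exists_pure {ι : Type*} [Finite ι] (T₀ : ℂ → Set ι) (hc : ∀ i, IsClosed {x | i ∈ T₀ x})
    (hn : ∀ x, (T₀ x).Nonempty) : ∃ T : ℂ → Set ι, (∀ i, IsClosed {x | i ∈ T x}) ∧
      (∀ x, (T x).Nonempty) ∧ (∀ x, T x ⊆ T₀ x) ∧ ∀ x, ∀ i ∈ T x, ∃ᶠ w in 𝓝 x, T w = {i} := by
  classical
  have : Fintype ι := Fintype.ofFinite ι
  -- families of open sets whose complements cover
  let S : Set (ι → Set ℂ) := {O | (∀ i, IsOpen (O i)) ∧ (∀ i, {x | i ∈ T₀ x}ᶜ ⊆ O i) ∧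
    ∀ x, ∃ i, x ∉ O i}
  have h0 : (fun i => {x | i ∈ T₀ x}ᶜ) ∈ S :=
    ⟨fun i => (hc i).isOpen_compl, fun i => Subset.rfl, fun x => by
      obtain ⟨i, hi⟩ := hn x
      exact ⟨i, fun hcon => hcon hi⟩⟩
  obtain ⟨O, -, hO⟩ := zorn_le_nonempty₀ S (fun c hc hchain O₀ hO₀ => by
    refine ⟨fun i => ⋃ O ∈ c, O i, ⟨fun i => isOpen_biUnion fun O hO => (hc hO).1 i, fun i => ?_, ?_⟩,
      fun O hO i => subset_biUnion_of_mem (u := fun O : ι → Set ℂ => O i) hO⟩
    · exact ((hc hO₀).2.1 i).trans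
        (subset_biUnion_of_mem (u := fun O : ι → Set ℂ => O i) hO₀)
    · intro x
      by_contra hcon
      push Not at hcon
      -- a single member contains `x` for all `i`
      have key : ∀ s : Finset ι, ∃ O ∈ c, ∀ i ∈ s, x ∈ O i := by
        intro s
        induction s using Finset.induction_on with
        | empty => exact ⟨O₀, hO₀, fun i hi => absurd hi (Finset.notMem_empty i)⟩
        | insert a s ha ih =>
          obtain ⟨O, hO, hs⟩ := ih
          obtain ⟨O', hO', hx'⟩ := mem_iUnion₂.1 (hcon a)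
          rcases hchain.total hO hO' with hle | hle
          · refine ⟨O', hO', fun i hi => ?_⟩
            rcases Finset.mem_insert.1 hi with rfl | hi
            · exact hx'
            · exact hle i (hs i hi)
          · refine ⟨O, hO, fun i hi => ?_⟩
            rcases Finset.mem_insert.1 hi with rfl | hi
            · exact hle _ hx'
            · exact hs i hi
      obtain ⟨O, hO, hall⟩ := key Finset.univ
      obtain ⟨i, hi⟩ := (hc hO).2.2 x
      exact hi (hall i (Finset.mem_univ i))) _ h0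
  have hOS : O ∈ S := hO.prop
  refine ⟨fun x => {i | x ∉ O i}, fun i => ?_, fun x => ?_, fun x i hi => ?_, fun x i hi => ?_⟩
  · exact (hOS.1 i).isClosed_compl
  · obtain ⟨i, hi⟩ := hOS.2.2 x
    exact ⟨i, hi⟩
  · by_contra hcon
    exact hi (hOS.2.1 i hcon)
  · intro hcon
    obtain ⟨N, hN, hNo, hxN⟩ := _root_.mem_nhds_iff.1 hcon
    have hN' : ∀ w ∈ N, {j | w ∉ O j} ≠ {i} := fun w hw => hN hw
    have h1 : Function.update O i (O i ∪ N) ∈ S := by
      refine ⟨fun j => ?_, fun j => ?_, fun y => ?_⟩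
      · rcases eq_or_ne j i with rfl | hji
        · rw [Function.update_self]; exact (hOS.1 _).union hNo
        · rw [Function.update_of_ne hji]; exact hOS.1 j
      · rcases eq_or_ne j i with rfl | hji
        · rw [Function.update_self]; exact (hOS.2.1 _).trans subset_union_left
        · rw [Function.update_of_ne hji]; exact hOS.2.1 j
      · obtain ⟨j, hj⟩ := hOS.2.2 y
        by_cases hyN : y ∈ N
        · -- another colour
          by_contra hcov
          push Not at hcov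
          refine hN' y hyN ?_
          have h2 : ∀ m, m ≠ i → y ∈ O m := by
            intro m hm
            have := hcov m
            rwa [Function.update_of_ne hm] at this
          ext m
          simp only [mem_ofPred_eq, mem_singleton_iff]
          constructor
          · intro hm
            by_contra hmi
            exact hm (h2 m hmi)
          · rintro rfl
            rcases eq_or_ne j m with rfl | hjm
            · exact hj
            · exact absurd (h2 j hjm) hj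
        · refine ⟨j, ?_⟩
          rcases eq_or_ne j i with rfl | hji
          · rw [Function.update_self]; exact fun h3 => h3.elim hj hyN
          · rw [Function.update_of_ne hji]; exact hj
    have h2 : O ≤ Function.update O i (O i ∪ N) := by
      intro j
      rcases eq_or_ne j i with rfl | hji
      · rw [Function.update_self]; exact subset_union_left
      · rw [Function.update_of_ne hji]
    have h3 := hO.le_of_ge h1 h2 i
    rw [Function.update_self] at h3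
    exact hi (h3 (Or.inr hxN))

variable {ι : Type*} [Finite ι]

/-- upper semicontinuity -/
theorem nhd_of_closed {T : ℂ → Set ι} (hc : ∀ i, IsClosed {x | i ∈ T x}) (x : ℂ) :
    ∀ᶠ z in 𝓝 x, T z ⊆ T x := by
  have h1 : ∀ i, ∀ᶠ z in 𝓝 x, i ∈ T z → i ∈ T x := by
    intro i
    by_cases hx : i ∈ T x
    · exact Eventually.of_forall fun z _ => hx
    · filter_upwards [(hc i).isOpen_compl.mem_nhds hx] with z hz hz'
      exact absurd hz' hz
  filter_upwards [eventually_all.2 h1] with z hz i hi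
  exact hz i hi

/-- the palette `s` is locally sufficient at `x` -/
def Suff (P : ℂ → Set ι) (s : Set ι) (x : ℂ) : Prop := ∀ᶠ w in 𝓝 x, ∃ i ∈ s, i ∈ P w

omit [Finite ι] in
theorem Suff.nhd {P : ℂ → Set ι} {s : Set ι} {x : ℂ} (h : Suff P s x) :
    ∀ᶠ w in 𝓝 x, Suff P s w := eventually_eventually_nhds.2 h

/-- the palette `s` is a minimal locally sufficient palette -/
def MinAt (P : ℂ → Set ι) (s : Set ι) (x : ℂ) : Prop := ∀ t, t ⊆ s → Suff P t x → t = s

theorem suff_self {P T : ℂ → Set ι} (hc : ∀ i, IsClosed {x | i ∈ T x})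
    (hn : ∀ x, (T x).Nonempty) (hs : ∀ x, T x ⊆ P x) (x : ℂ) : Suff P (T x) x := by
  filter_upwards [nhd_of_closed hc x] with w hw
  obtain ⟨i, hi⟩ := hn w
  exact ⟨i, hw hi, hs w hi⟩

/-- **gluing**: near the points `x` of `G` the palette `s x` is used, elsewhere `T` -/
theorem glue {P : ℂ → Set ι} {K : Set ι → ℂ → Set ι}
    (hKs : ∀ s x, K s x ⊆ s) (hKc : ∀ s i, IsClosed {x | i ∈ K s x})
    (hK : ∀ s x, (∃ i ∈ s, i ∈ P x) → (K s x).Nonempty ∧ K s x ⊆ P x)
    {Z : Set ℂ} (hZ : IsClosed Z) (hZd : IsTotallyDisconnected Z)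
    {T : ℂ → Set ι} (hc : ∀ i, IsClosed {x | i ∈ T x}) (hn : ∀ x, (T x).Nonempty)
    (hs : ∀ x, T x ⊆ P x) {X : Set ℂ} (hXc : IsClosed X) {G : Set ℂ} {s : ℂ → Set ι} {r : ℂ → ℝ}
    (hr0 : ∀ x, 0 < r x) (hr1 : ∀ x ∈ G, x ∉ X → ∀ w, dist w x < r x → ∃ i ∈ s x, i ∈ P w)
    (hr2 : ∀ x ∈ G, x ∉ X → ∀ p ∈ X, 2 * r x ≤ dist x p ∧ s x ⊆ T x) :
    ∃ T' : ℂ → Set ι, (∀ i, IsClosed {x | i ∈ T' x}) ∧ (∀ x, (T' x).Nonempty) ∧
      (∀ x, T' x ⊆ P x) ∧ (∀ x ∈ X, T' x ⊆ T x) ∧ ∀ w, w ∉ X → w ∉ Z ∨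
        (∃ x ∈ G, x ∉ X ∧ dist w x < r x ∧ T' w ⊆ s x) ∨
        (∃ x, x ∉ G ∧ x ∉ X ∧ dist w x < r x ∧ T' w ⊆ T w) := by
  classical
  set E : Set ℂ := Z \ X with hE
  have hEl : IsLocallyClosed E := by
    rw [hE, sdiff_eq]
    exact hZ.isLocallyClosed.inter hXc.isOpen_compl.isLocallyClosed
  obtain ⟨lab, hlab, hloc⟩ := exists_lab hEl (fun t ht htp => hZd t (ht.trans sdiff_subset) htp)
    (fun x => r x / 2) (fun x _ => half_pos (hr0 x))
  have hrho : ∀ d, ∃ ρ : ℝ, 0 < ρ ∧ (d ∈ E → dist d (lab d) + ρ ≤ r (lab d) / 2 ∧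
      ∀ d' ∈ E, dist d' d < 2 * ρ → lab d' = lab d) := by
    intro d
    by_cases hd : d ∈ E
    · obtain ⟨q, hq, hball⟩ := Metric.mem_nhds_iff.1 (hloc d hd)
      have h1 := (hlab d hd).2
      refine ⟨min (q / 2) (r (lab d) / 2 - dist d (lab d)), lt_min (by positivity) (by linarith),
        fun _ => ⟨?_, fun d' hd' hdd => ?_⟩⟩
      · have := min_le_right (q / 2) (r (lab d) / 2 - dist d (lab d))
        linarith
      · refine hball (mem_ball.2 ?_) hd'
        have := min_le_left (q / 2) (r (lab d) / 2 - dist d (lab d))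
        linarith
    · exact ⟨1, one_pos, fun h => absurd h hd⟩
  choose ρ hρ0 hρ using hrho
  -- the points with a label in `G`
  set D : Set ℂ := {d | d ∈ E ∧ lab d ∈ G} with hD
  have hDE : ∀ d ∈ D, d ∈ E := fun d hd => hd.1
  -- the regions
  set B : Set ι → Set ℂ := fun t => {w | ∃ d ∈ D, dist w d < ρ d ∧ s (lab d) = t} with hB
  set N : Set ℂ := {w | ∃ d ∈ D, dist w d < ρ d} with hN
  have hNo : IsOpen N := by
    have : N = ⋃ d ∈ D, ball d (ρ d) := by ext w; simp [N]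
    rw [this]
    exact isOpen_biUnion fun d _ => isOpen_ball
  have hlabX : ∀ d ∈ D, lab d ∉ X := fun d hd => (hlab d hd.1).1.2
  -- two balls which meet have the same label
  have hsame : ∀ d ∈ E, ∀ d' ∈ E, ∀ w, dist w d < ρ d → dist w d' < ρ d' → lab d = lab d' := by
    intro d hd d' hd' w hw hw'
    have h1 := dist_triangle_left d d' w
    have h2 := dist_triangle_left d' d w
    rcases le_total (ρ d) (ρ d') with h | h
    · exact (hρ d' hd').2 d hd (by linarith)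
    · exact ((hρ d hd).2 d' hd' (by linarith)).symm
  have hgoodball : ∀ d ∈ E, ∀ w, dist w d < ρ d → dist w (lab d) < r (lab d) / 2 := by
    intro d hd w hw
    have h1 := (hρ d hd).1
    have h2 := dist_triangle w d (lab d)
    linarith
  have hgood : ∀ d ∈ D, ∀ w, dist w (lab d) < r (lab d) → ∃ i ∈ s (lab d), i ∈ P w := by
    intro d hd w hw
    exact hr1 (lab d) hd.2 (hlabX d hd) w hw
  -- (alpha)
  have halpha' : ∀ t, ∀ w ∈ closure (B t), ∀ d ∈ E, dist w d < ρ d →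
      lab d ∈ G ∧ t = s (lab d) := by
    intro t w hw d hd hwd
    obtain ⟨v, hv, hvB⟩ := mem_closure_iff_nhds.1 hw (ball d (ρ d))
      (isOpen_ball.mem_nhds (mem_ball.2 hwd))
    obtain ⟨d', hd', hvd', rfl⟩ := hvB
    have h1 := hsame d' hd'.1 d hd v hvd' (mem_ball.1 hv)
    rw [← h1]
    exact ⟨hd'.2, rfl⟩
  -- (beta)
  have hbeta : ∀ t, ∀ w ∈ closure (B t), w ∉ X → ∃ i ∈ t, i ∈ P w := by
    intro t w hw hwX
    by_cases hwE : w ∈ E
    · have h1 : dist w w < ρ w := by rw [dist_self]; exact hρ0 w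
      obtain ⟨h2, h3⟩ := halpha' t w hw w hwE h1
      rw [h3]
      refine hgood w ⟨hwE, h2⟩ w ?_
      have := hgoodball w hwE w h1
      have := hr0 (lab w)
      linarith
    · have hwZ : w ∉ Z ∪ X := fun h => h.elim (fun h => hwE ⟨h, hwX⟩) hwX
      obtain ⟨η, hη, hball⟩ := Metric.mem_nhds_iff.1 ((hZ.union hXc).isOpen_compl.mem_nhds hwZ)
      obtain ⟨v, hv, d, hd, hvd, rfl⟩ := mem_closure_iff_nhds.1 hw (ball w (η / 2))
        (ball_mem_nhds w (by positivity))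
      have h1 : η ≤ dist (lab d) w := by
        by_contra hcon
        push Not at hcon
        exact hball (mem_ball.2 hcon) (Or.inl (hlab d hd.1).1.1)
      have h2 := hgoodball d hd.1 v hvd
      have h3 : dist v w < η / 2 := mem_ball.1 hv
      have h4 := dist_triangle_left (lab d) w v
      refine hgood d hd w ?_
      have h5 := dist_triangle_left w (lab d) v
      linarith
  -- (gamma)
  have hgamma : ∀ t, ∀ w ∈ closure (B t), w ∈ X → t ⊆ T w := by
    intro t w hw hwX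
    obtain ⟨ε, hε, hball⟩ := Metric.mem_nhds_iff.1 (nhd_of_closed hc w)
    obtain ⟨v, hv, d, hd, hvd, rfl⟩ := mem_closure_iff_nhds.1 hw (ball w (ε / 2))
      (ball_mem_nhds w (by positivity))
    have h2 := hgoodball d hd.1 v hvd
    have h3 : dist v w < ε / 2 := mem_ball.1 hv
    obtain ⟨h4, h4'⟩ := hr2 (lab d) hd.2 (hlabX d hd) w hwX
    have h5 := dist_triangle_left (lab d) w v
    have h6 : dist (lab d) w < ε := by linarith
    exact h4'.trans (hball (mem_ball.2 h6))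
  -- the new palettes
  let T' : ℂ → Set ι := fun w => {i | (∃ t, w ∈ closure (B t) ∧ i ∈ K t w) ∨ (i ∈ T w ∧ w ∉ N)}
  have hT'X : ∀ w ∈ X, T' w ⊆ T w := by
    rintro w hw i (⟨t, ht, hi⟩ | ⟨hi, -⟩)
    · exact hgamma t w ht hw (hKs t w hi)
    · exact hi
  have hT'c : ∀ i, IsClosed {x | i ∈ T' x} := by
    intro i
    have h1 : {x | i ∈ T' x} = (⋃ t, closure (B t) ∩ {x | i ∈ K t x}) ∪ ({x | i ∈ T x} ∩ Nᶜ) := by
      ext x
      simp [T']
    rw [h1]
    exact (isClosed_iUnion_of_finite fun t => isClosed_closure.inter (hKc t i)).union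
      ((hc i).inter hNo.isClosed_compl)
  have hT's : ∀ x, T' x ⊆ P x := by
    rintro w i (⟨t, ht, hi⟩ | ⟨hi, -⟩)
    · by_cases hwX : w ∈ X
      · exact hs w (hgamma t w ht hwX (hKs t w hi))
      · exact (hK t w (hbeta t w ht hwX)).2 hi
    · exact hs w hi
  have hT'n : ∀ x, (T' x).Nonempty := by
    intro w
    by_cases hwN : w ∈ N
    · obtain ⟨d, hd, hwd⟩ := hwN
      have h1 : w ∈ closure (B (s (lab d))) := subset_closure ⟨d, hd, hwd, rfl⟩
      have h2 := hgoodball d hd.1 w hwd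
      have h3 := hr0 (lab d)
      obtain ⟨i, hi⟩ := (hK (s (lab d)) w (hgood d hd w (by linarith))).1
      exact ⟨i, Or.inl ⟨_, h1, hi⟩⟩
    · obtain ⟨i, hi⟩ := hn w
      exact ⟨i, Or.inr ⟨hi, hwN⟩⟩
  refine ⟨T', hT'c, hT'n, hT's, hT'X, fun w hwX => ?_⟩
  by_cases hwZ : w ∈ Z
  · right
    have hwE : w ∈ E := ⟨hwZ, hwX⟩
    have h1 : dist w w < ρ w := by rw [dist_self]; exact hρ0 w
    have h2 := hgoodball w hwE w h1
    have h3 := hr0 (lab w)
    by_cases hG : lab w ∈ G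
    · left
      refine ⟨lab w, hG, (hlab w hwE).1.2, by linarith, ?_⟩
      rintro i (⟨t, ht, hi⟩ | ⟨-, hi⟩)
      · rw [← (halpha' t w ht w hwE h1).2]
        exact hKs t w hi
      · exact absurd ⟨w, ⟨hwE, hG⟩, h1⟩ hi
    · right
      refine ⟨lab w, hG, (hlab w hwE).1.2, by linarith, ?_⟩
      rintro i (⟨t, ht, -⟩ | ⟨hi, -⟩)
      · exact absurd (halpha' t w ht w hwE h1).1 hG
      · exact hi
  · exact Or.inl hwZ

/-- one step: if all palettes are minimal or have at most `n + 1` colours, then ... at most `n`;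
the palettes in a closed set `Y` with at most `M` colours keep this property -/
theorem min_step' {P : ℂ → Set ι} {K : Set ι → ℂ → Set ι}
    (hKs : ∀ s x, K s x ⊆ s) (hKc : ∀ s i, IsClosed {x | i ∈ K s x})
    (hK : ∀ s x, (∃ i ∈ s, i ∈ P x) → (K s x).Nonempty ∧ K s x ⊆ P x)
    {Z : Set ℂ} (hZ : IsClosed Z) (hZd : IsTotallyDisconnected Z) {n : ℕ}
    (hZn : ∀ x, x ∉ Z → (P x).ncard ≤ n)
    {T : ℂ → Set ι} (hc : ∀ i, IsClosed {x | i ∈ T x}) (hn : ∀ x, (T x).Nonempty)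
    (hs : ∀ x, T x ⊆ P x) (hT : ∀ x, (T x).ncard ≤ n + 1 ∨ MinAt P (T x) x)
    {Y : Set ℂ} (hY : IsClosed Y) {M : ℕ} (hMY : ∀ x ∈ Y, (T x).ncard ≤ M)
    (hMZ : ∀ x ∈ Y, x ∉ Z → (P x).ncard ≤ M) :
    ∃ T' : ℂ → Set ι, (∀ i, IsClosed {x | i ∈ T' x}) ∧ (∀ x, (T' x).Nonempty) ∧
      (∀ x, T' x ⊆ P x) ∧ (∀ x, (T' x).ncard ≤ n ∨ MinAt P (T' x) x) ∧
        ∀ x ∈ Y, (T' x).ncard ≤ M := by
  classical
  set X : Set ℂ := {x | n + 1 ≤ (T x).ncard ∧ MinAt P (T x) x} with hX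
  have hXc : IsClosed X := by
    rw [← isOpen_compl_iff, isOpen_iff_mem_nhds]
    intro x hx
    by_cases h1 : (T x).ncard ≤ n
    · filter_upwards [nhd_of_closed hc x] with w hw hwX
      have h2 := Set.ncard_le_ncard hw (Set.toFinite _)
      have h3 := hwX.1
      omega
    · have h2 : ¬ MinAt P (T x) x := fun h3 => hx ⟨by omega, h3⟩
      have h4 : (T x).ncard ≤ n + 1 := (hT x).resolve_right h2
      unfold MinAt at h2
      push Not at h2
      obtain ⟨s, hsT, hsuf, hne⟩ := h2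
      filter_upwards [nhd_of_closed hc x, hsuf.nhd] with w hw hw' hwX
      have h5 : T w = T x := Set.eq_of_subset_of_ncard_le hw (h4.trans hwX.1) (Set.toFinite _)
      exact hne ((hwX.2 s (by rw [h5]; exact hsT) hw').trans h5)
  -- a sufficient palette with at most `n` colours off `X`
  have hsel : ∀ x, ∃ s : Set ι, x ∉ X → s ⊆ T x ∧ s.ncard ≤ n ∧ Suff P s x := by
    intro x
    by_cases h1 : (T x).ncard ≤ n
    · exact ⟨T x, fun _ => ⟨Subset.rfl, h1, suff_self hc hn hs x⟩⟩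
    · by_cases h2 : MinAt P (T x) x
      · exact ⟨∅, fun hx => absurd ⟨by omega, h2⟩ hx⟩
      · have h4 : (T x).ncard ≤ n + 1 := (hT x).resolve_right h2
        unfold MinAt at h2
        push Not at h2
        obtain ⟨s, hsT, hsuf, hne⟩ := h2
        have h5 := Set.ncard_lt_ncard (hsT.ssubset_of_ne hne) (Set.toFinite _)
        exact ⟨s, fun _ => ⟨hsT, by omega, hsuf⟩⟩
  choose s hsel using hsel
  have hrad : ∀ x, ∃ r : ℝ, 0 < r ∧ (x ∉ X → (∀ w, dist w x < r → ∃ i ∈ s x, i ∈ P w) ∧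
      ∀ p ∈ X, 2 * r ≤ dist x p) ∧ (x ∉ Y → ∀ w, dist w x < r → w ∉ Y) := by
    intro x
    have hyy : ∃ r'' : ℝ, 0 < r'' ∧ (x ∉ Y → ∀ w, dist w x < r'' → w ∉ Y) := by
      by_cases hxY : x ∈ Y
      · exact ⟨1, one_pos, fun h => absurd hxY h⟩
      · obtain ⟨r'', hr'', hball''⟩ := Metric.mem_nhds_iff.1 (hY.isOpen_compl.mem_nhds hxY)
        exact ⟨r'', hr'', fun _ w hw => hball'' (mem_ball.2 hw)⟩
    obtain ⟨r'', hr'', hY''⟩ := hyy
    by_cases hx : x ∈ X
    · exact ⟨r'', hr'', fun h => absurd hx h, hY''⟩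
    · obtain ⟨r, hr, hball⟩ := Metric.mem_nhds_iff.1 (hsel x hx).2.2
      obtain ⟨r', hr', hball'⟩ := Metric.mem_nhds_iff.1 (hXc.isOpen_compl.mem_nhds hx)
      refine ⟨min (min r (r' / 2)) r'', lt_min (lt_min hr (by positivity)) hr'',
        fun _ => ⟨fun w hw => ?_, fun p hp => ?_⟩, fun hxY w hw => hY'' hxY w
          (lt_of_lt_of_le hw (min_le_right _ _))⟩
      · exact hball (mem_ball.2 (lt_of_lt_of_le hw ((min_le_left _ _).trans (min_le_left _ _))))
      · by_contra hcon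
        push Not at hcon
        refine hball' (mem_ball.2 ?_) hp
        rw [dist_comm]
        have h1 := min_le_right r (r' / 2)
        have h2 := min_le_left (min r (r' / 2)) r''
        linarith
  choose r hr0 hr using hrad
  obtain ⟨T', hc', hn', hs', hX', hw'⟩ := glue hKs hKc hK hZ hZd hc hn hs hXc (G := univ) hr0
    (fun x _ hx w hw => ((hr x).1 hx).1 w hw)
    (fun x _ hx p hp => ⟨((hr x).1 hx).2 p hp, (hsel x hx).1⟩)
  have hfin : ∀ w, w ∉ X → w ∉ Z ∨ ∃ x, x ∉ X ∧ dist w x < r x ∧ T' w ⊆ s x := by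
    intro w hwX
    rcases hw' w hwX with h1 | ⟨x, -, hx, hwx, hsub⟩ | ⟨x, hx, -⟩
    · exact Or.inl h1
    · exact Or.inr ⟨x, hx, hwx, hsub⟩
    · exact absurd (mem_univ x) hx
  refine ⟨T', hc', hn', hs', fun w => ?_, fun w hwY => ?_⟩
  · by_cases hwX : w ∈ X
    · right
      have h1 : T' w = T w := hwX.2 (T' w) (hX' w hwX) (suff_self hc' hn' hs' w)
      rw [h1]
      exact hwX.2
    · left
      rcases hfin w hwX with h1 | ⟨x, hx, -, hsub⟩
      · exact (Set.ncard_le_ncard (hs' w) (Set.toFinite _)).trans (hZn w h1)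
      · exact (Set.ncard_le_ncard hsub (Set.toFinite _)).trans (hsel x hx).2.1
  · by_cases hwX : w ∈ X
    · exact (Set.ncard_le_ncard (hX' w hwX) (Set.toFinite _)).trans (hMY w hwY)
    · rcases hfin w hwX with h1 | ⟨x, hx, hwx, hsub⟩
      · exact (Set.ncard_le_ncard (hs' w) (Set.toFinite _)).trans (hMZ w hwY h1)
      · have hxY : x ∈ Y := by
          by_contra hxY
          exact (hr x).2 hxY w hwx hwY
        exact (Set.ncard_le_ncard (hsub.trans (hsel x hx).1) (Set.toFinite _)).trans (hMY x hxY)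

/-- **minimal covers**, with a bound on a closed set -/
theorem exists_min_cover' {P : ℂ → Set ι} {K : Set ι → ℂ → Set ι}
    (hKs : ∀ s x, K s x ⊆ s) (hKc : ∀ s i, IsClosed {x | i ∈ K s x})
    (hK : ∀ s x, (∃ i ∈ s, i ∈ P x) → (K s x).Nonempty ∧ K s x ⊆ P x)
    {Z : Set ℂ} (hZ : IsClosed Z) (hZd : IsTotallyDisconnected Z) {n : ℕ}
    (hZn : ∀ x, x ∉ Z → (P x).ncard ≤ n)
    {T : ℂ → Set ι} (hc : ∀ i, IsClosed {x | i ∈ T x}) (hn : ∀ x, (T x).Nonempty)
    (hs : ∀ x, T x ⊆ P x)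
    {Y : Set ℂ} (hY : IsClosed Y) {M : ℕ} (hMY : ∀ x ∈ Y, (T x).ncard ≤ M)
    (hMZ : ∀ x ∈ Y, x ∉ Z → (P x).ncard ≤ M) :
    ∃ T' : ℂ → Set ι, (∀ i, IsClosed {x | i ∈ T' x}) ∧ (∀ x, (T' x).Nonempty) ∧
      (∀ x, T' x ⊆ P x) ∧ (∀ x, ∀ i ∈ T' x, ∃ᶠ w in 𝓝 x, T' w = {i}) ∧
        (∀ x, n < (T' x).ncard → MinAt P (T' x) x) ∧ ∀ x ∈ Y, (T' x).ncard ≤ M := by
  classical
  have key : ∀ m, ∃ T' : ℂ → Set ι, (∀ i, IsClosed {x | i ∈ T' x}) ∧ (∀ x, (T' x).Nonempty) ∧
      (∀ x, T' x ⊆ P x) ∧ (∀ x, (T' x).ncard ≤ n + (Nat.card ι - m) ∨ MinAt P (T' x) x) ∧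
        ∀ x ∈ Y, (T' x).ncard ≤ M := by
    intro m
    induction m with
    | zero =>
      refine ⟨T, hc, hn, hs, fun x => Or.inl ?_, hMY⟩
      have h1 := Set.ncard_le_card (T x)
      omega
    | succ m ih =>
      obtain ⟨T', hc', hn', hs', hT', hY'⟩ := ih
      by_cases hm : Nat.card ι ≤ m
      · refine ⟨T', hc', hn', hs', fun x => ?_, hY'⟩
        rcases hT' x with h1 | h1
        · left; omega
        · exact Or.inr h1
      · refine min_step' hKs hKc hK hZ hZd (n := n + (Nat.card ι - (m + 1)))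
          (fun x hx => (hZn x hx).trans (by omega)) hc' hn' hs' (fun x => ?_) hY hY' hMZ
        rcases hT' x with h1 | h1
        · left; omega
        · exact Or.inr h1
  obtain ⟨T₁, hc₁, hn₁, hs₁, hT₁, hY₁⟩ := key (Nat.card ι)
  obtain ⟨T', hc', hn', hs', hp⟩ := exists_pure T₁ hc₁ hn₁
  have hsP : ∀ x, T' x ⊆ P x := fun x => (hs' x).trans (hs₁ x)
  refine ⟨T', hc', hn', hsP, hp, fun x hx => ?_, fun x hx =>
    (Set.ncard_le_ncard (hs' x) (Set.toFinite _)).trans (hY₁ x hx)⟩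
  have h1 : MinAt P (T₁ x) x := by
    refine (hT₁ x).resolve_left fun h2 => ?_
    have h3 := Set.ncard_le_ncard (hs' x) (Set.toFinite _)
    omega
  have h2 : T' x = T₁ x := h1 (T' x) (hs' x) (suff_self hc' hn' hsP x)
  rw [h2]
  exact h1

/-- **minimal covers** -/
theorem exists_min_cover {P : ℂ → Set ι} {K : Set ι → ℂ → Set ι}
    (hKs : ∀ s x, K s x ⊆ s) (hKc : ∀ s i, IsClosed {x | i ∈ K s x})
    (hK : ∀ s x, (∃ i ∈ s, i ∈ P x) → (K s x).Nonempty ∧ K s x ⊆ P x)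
    {Z : Set ℂ} (hZ : IsClosed Z) (hZd : IsTotallyDisconnected Z) {n : ℕ}
    (hZn : ∀ x, x ∉ Z → (P x).ncard ≤ n)
    {T : ℂ → Set ι} (hc : ∀ i, IsClosed {x | i ∈ T x}) (hn : ∀ x, (T x).Nonempty)
    (hs : ∀ x, T x ⊆ P x) :
    ∃ T' : ℂ → Set ι, (∀ i, IsClosed {x | i ∈ T' x}) ∧ (∀ x, (T' x).Nonempty) ∧
      (∀ x, T' x ⊆ P x) ∧ (∀ x, ∀ i ∈ T' x, ∃ᶠ w in 𝓝 x, T' w = {i}) ∧
        ∀ x, n < (T' x).ncard → MinAt P (T' x) x := by
  obtain ⟨T', h1, h2, h3, h4, h5, -⟩ := exists_min_cover' hKs hKc hK hZ hZd hZn hc hn hs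
    (Y := ∅) isClosed_empty (M := 0) (fun x hx => absurd hx (notMem_empty x))
    (fun x hx => absurd hx (notMem_empty x))
  exact ⟨T', h1, h2, h3, h4, h5⟩

/-- **order reduction on a closed set**: if near every point of `Y` some `m` colours suffice, then
there is a closed cover with at most `m` colours at the points of `Y` -/
theorem exists_order {P : ℂ → Set ι} {K : Set ι → ℂ → Set ι}
    (hKs : ∀ s x, K s x ⊆ s) (hKc : ∀ s i, IsClosed {x | i ∈ K s x})
    (hK : ∀ s x, (∃ i ∈ s, i ∈ P x) → (K s x).Nonempty ∧ K s x ⊆ P x)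
    {Z : Set ℂ} (hZ : IsClosed Z) (hZd : IsTotallyDisconnected Z)
    {T : ℂ → Set ι} (hc : ∀ i, IsClosed {x | i ∈ T x}) (hn : ∀ x, (T x).Nonempty)
    (hs : ∀ x, T x ⊆ P x)
    {Y : Set ℂ} (hY : IsClosed Y) {m : ℕ} (hZm : ∀ x ∈ Y, x ∉ Z → (P x).ncard ≤ m)
    (hsuf : ∀ x ∈ Y, ∃ s : Set ι, s.ncard ≤ m ∧ Suff P s x) :
    ∃ T' : ℂ → Set ι, (∀ i, IsClosed {x | i ∈ T' x}) ∧ (∀ x, (T' x).Nonempty) ∧
      (∀ x, T' x ⊆ P x) ∧ ∀ x ∈ Y, (T' x).ncard ≤ m := by
  classical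
  have hsel : ∀ x, ∃ s : Set ι, (∃ s : Set ι, s.ncard ≤ m ∧ Suff P s x) →
      s.ncard ≤ m ∧ Suff P s x := by
    intro x
    by_cases hx : ∃ s : Set ι, s.ncard ≤ m ∧ Suff P s x
    · obtain ⟨s, hs⟩ := hx
      exact ⟨s, fun _ => hs⟩
    · exact ⟨∅, fun h => absurd h hx⟩
  choose s hsel using hsel
  have hrad : ∀ x, ∃ r : ℝ, 0 < r ∧ ((∃ s : Set ι, s.ncard ≤ m ∧ Suff P s x) →
      ∀ w, dist w x < r → ∃ i ∈ s x, i ∈ P w) ∧ (x ∉ Y → ∀ w, dist w x < r → w ∉ Y) := by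
    intro x
    have hyy : ∃ r'' : ℝ, 0 < r'' ∧ (x ∉ Y → ∀ w, dist w x < r'' → w ∉ Y) := by
      by_cases hxY : x ∈ Y
      · exact ⟨1, one_pos, fun h => absurd hxY h⟩
      · obtain ⟨r'', hr'', hball''⟩ := Metric.mem_nhds_iff.1 (hY.isOpen_compl.mem_nhds hxY)
        exact ⟨r'', hr'', fun _ w hw => hball'' (mem_ball.2 hw)⟩
    obtain ⟨r'', hr'', hY''⟩ := hyy
    by_cases hx : ∃ s : Set ι, s.ncard ≤ m ∧ Suff P s x
    · obtain ⟨r, hr, hball⟩ := Metric.mem_nhds_iff.1 (hsel x hx).2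
      refine ⟨min r r'', lt_min hr hr'', fun _ w hw => ?_, fun hxY w hw => hY'' hxY w
        (lt_of_lt_of_le hw (min_le_right _ _))⟩
      exact hball (mem_ball.2 (lt_of_lt_of_le hw (min_le_left _ _)))
    · exact ⟨r'', hr'', fun h => absurd h hx, hY''⟩
  choose r hr0 hr using hrad
  obtain ⟨T', hc', hn', hs', -, hw'⟩ := glue hKs hKc hK hZ hZd hc hn hs (X := ∅) isClosed_empty
    (G := {x | ∃ s : Set ι, s.ncard ≤ m ∧ Suff P s x}) hr0 (fun x hx _ w hw => (hr x).1 hx w hw)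
    (fun x _ _ p hp => absurd hp (notMem_empty p))
  refine ⟨T', hc', hn', hs', fun w hwY => ?_⟩
  rcases hw' w (notMem_empty w) with h1 | ⟨x, hx, -, hwx, hsub⟩ | ⟨x, hx, -, hwx, -⟩
  · exact (Set.ncard_le_ncard (hs' w) (Set.toFinite _)).trans (hZm w hwY h1)
  · exact (Set.ncard_le_ncard hsub (Set.toFinite _)).trans (hsel x hx).1
  · by_cases hxY : x ∈ Y
    · exact absurd (hsuf x hxY) hx
    · exact absurd hwY ((hr x).2 hxY w hwx)

end Vale.Agent.P032.S5.H410
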