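import Vale.Agent.P032.S5.H483.IrrZ
import Vale.Agent.P032.S5.H410.MinA

/-!
# P032: irredundant covers with minimal palettes

`exists_irr_min` : a maximal family of six sets has an irredundant closed cover `Irr U T` in which
every palette with at least four colours is a minimal sufficient palette: if `s ⊆ T z` and near
`z` every point off `XX U` is in one of the `U i`, `i ∈ s`, and every point of `XX U` in one of their
closures, then `s = T z`.  `exists_irr_min_le` : moreover, if near every point of a closed set `Y`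
some `m` of the sets suffice, then the palettes at the points of `Y` have at most `m` colours.
-/

open Set Filter Topology Metric

noncomputable section

namespace Vale.Agent.P032.S5.H410

open Vale.Agent.P032.Six

variable {k : ℕ} {U : Fin k → Set ℂ}

/-- the allowed colours at `x` -/
def PU (U : Fin k → Set ℂ) (x : ℂ) : Set (Fin k) := {i | i ∈ Pal U x ∧ (x ∉ XX U → x ∈ U i)}

/-- the reduced palettes of the subfamily `s` -/
def Ks (U : Fin k → Set ℂ) (s : Set (Fin k)) (x : ℂ) : Set (Fin k) :=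
  {i | i ∈ s ∧ i ∈ Pal U x ∧ ∀ j ∈ s, ff U j x ≤ ff U i x}

theorem Ks_closed (U : Fin k → Set ℂ) (s : Set (Fin k)) (i : Fin k) :
    IsClosed {x | i ∈ Ks U s x} := by
  classical
  by_cases hi : i ∈ s
  · have h1 : {x | i ∈ Ks U s x} = closure (U i) ∩ ⋂ j : {j // j ∈ s}, {x | ff U j x ≤ ff U i x} := by
      ext x
      simp [Ks, Pal, hi]
    rw [h1]
    exact isClosed_closure.inter (isClosed_iInter fun j =>
      isClosed_le (continuous_ff _) (continuous_ff i))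
  · have h1 : {x | i ∈ Ks U s x} = ∅ := by
      ext x
      simp [Ks, hi]
    rw [h1]
    exact isClosed_empty

theorem Ks_good (h : Mx U) (s : Set (Fin k)) (x : ℂ) (hx : ∃ i ∈ s, i ∈ PU U x) :
    (Ks U s x).Nonempty ∧ Ks U s x ⊆ PU U x := by
  classical
  obtain ⟨i, his, hiP, hiU⟩ := hx
  by_cases hX : x ∈ XX U
  · refine ⟨⟨i, his, hiP, fun j _ => ?_⟩, fun j hj => ⟨hj.2.1, fun hcon => absurd hX hcon⟩⟩
    rw [ff_zero (hX j)]
    exact ff_nonneg i x
  · have hiU := hiU hX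
    obtain ⟨m, hm, hmax⟩ := Set.exists_max_image s (fun j => ff U j x) (Set.toFinite _) ⟨i, his⟩
    have h1 : 0 < ff U m x := lt_of_lt_of_le (h.ff_pos hiU) (hmax i his)
    have hmem : ∀ j, 0 < ff U j x → x ∈ U j := by
      intro j hj
      by_contra hcon
      rw [ff_zero hcon] at hj
      exact lt_irrefl _ hj
    refine ⟨⟨m, hm, subset_closure (hmem m h1), fun j hj => hmax j hj⟩, fun j hj => ?_⟩
    have h2 : 0 < ff U j x := lt_of_lt_of_le h1 (hj.2.2 m hm)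
    exact ⟨hj.2.1, fun _ => hmem j h2⟩

/-- points of `XX` with at least four colours -/
theorem td_XX {U : Fin 6 → Set ℂ} (h : Mx U) :
    IsClosed (XX U ∩ {x | 4 ≤ (Pal U x).ncard}) ∧
      IsTotallyDisconnected (XX U ∩ {x | 4 ≤ (Pal U x).ncard}) := by
  have hc : IsClosed {x | 4 ≤ (Pal U x).ncard} := by
    rw [← isOpen_compl_iff, isOpen_iff_mem_nhds]
    intro x hx
    have hx : ¬ 4 ≤ (Pal U x).ncard := hx
    filter_upwards [nhd_of_closed (T := Pal U) (fun i => isClosed_closure) x] with y hy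
    have := Set.ncard_le_ncard hy (Set.toFinite _)
    show ¬ 4 ≤ (Pal U y).ncard
    omega
  have hc' : IsClosed (XX U ∩ {x | 4 ≤ (Pal U x).ncard}) := h.isClosed_XX.inter hc
  refine ⟨hc', td_of_local hc' fun x t ht htp => ?_⟩
  exact (h.td_ball x 1).2 t (ht.trans fun y hy => ⟨hy.1, hy.2.2⟩) htp

/-- **Existence**, with a bound: if near every point of the closed set `Y` some `m` of the sets
suffice (`3 ≤ m`), then the palettes at the points of `Y` have at most `m` colours -/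
theorem exists_irr_min_le {U : Fin 6 → Set ℂ} (h : Mx U)
    (hmax : ∀ i x, (∀ y ∈ closure (U i), dist x y ≠ 1) → x ∈ U i) {Y : Set ℂ} (hY : IsClosed Y)
    {m : ℕ} (hm : 3 ≤ m) (hsuf : ∀ x ∈ Y, ∃ s : Set (Fin 6), s.ncard ≤ m ∧
      ∀ᶠ w in 𝓝 x, ∃ i ∈ s, i ∈ Pal U w ∧ (w ∉ XX U → w ∈ U i)) : ∃ T, Irr U T ∧
      (∀ z, 4 ≤ (T z).ncard → ∀ s, s ⊆ T z →
        (∀ᶠ w in 𝓝 z, ∃ i ∈ s, i ∈ Pal U w ∧ (w ∉ XX U → w ∈ U i)) → s = T z) ∧
      ∀ z ∈ Y, (T z).ncard ≤ m := by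
  classical
  obtain ⟨hZ, hZd⟩ := td_XX h
  have hZn : ∀ x, x ∉ XX U ∩ {x | 4 ≤ (Pal U x).ncard} → (PU U x).ncard ≤ 3 := by
    intro x hx
    by_cases hX : x ∈ XX U
    · have h1 : ¬ 4 ≤ (Pal U x).ncard := fun h4 => hx ⟨hX, h4⟩
      have h2 := Set.ncard_le_ncard (s := PU U x) (t := Pal U x) (fun i hi => hi.1)
        (Set.toFinite _)
      omega
    · exact (Set.ncard_le_ncard (t := {i | x ∈ U i}) (fun i hi => hi.2 hX)
        (Set.toFinite _)).trans (h.K0_three x)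
  obtain ⟨T₀, hc₀, hn₀, hs₀, hY₀⟩ := exists_order (P := PU U) (K := Ks U)
    (fun s x i hi => hi.1) (fun s i => Ks_closed U s i) (fun s x hx => Ks_good h s x hx)
    hZ hZd (T := Kst U) (isClosed_Fst U) h.Kst_nonempty
    (fun x i hi => ⟨Kst_sub x hi, fun hX => h.Kst_mem hX hi⟩) hY (m := m)
    (fun x _ hx => (hZn x hx).trans hm) hsuf
  obtain ⟨T, hc, hn, hs, hp, hmin, hY'⟩ := exists_min_cover' (P := PU U) (K := Ks U)
    (fun s x i hi => hi.1) (fun s i => Ks_closed U s i) (fun s x hx => Ks_good h s x hx)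
    hZ hZd (n := 3) hZn hc₀ hn₀ hs₀ hY hY₀ (fun x _ hx => (hZn x hx).trans hm)
  exact ⟨T, ⟨h, hmax, hc, hn, fun x i hi => (hs x hi).1, fun x hX i hi => (hs x hi).2 hX, hp⟩,
    fun z hz s hsz hsuf => hmin z hz s hsz hsuf, hY'⟩

/-- **Existence.** -/
theorem exists_irr_min_of {U : Fin 6 → Set ℂ} (h : Mx U)
    (hmax : ∀ i x, (∀ y ∈ closure (U i), dist x y ≠ 1) → x ∈ U i) : ∃ T, Irr U T ∧
      ∀ z, 4 ≤ (T z).ncard → ∀ s, s ⊆ T z →
        (∀ᶠ w in 𝓝 z, ∃ i ∈ s, i ∈ Pal U w ∧ (w ∉ XX U → w ∈ U i)) → s = T z := by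
  obtain ⟨T, hT, hmin, -⟩ := exists_irr_min_le h hmax isClosed_empty (m := 3) le_rfl
    (fun x hx => absurd hx (notMem_empty x))
  exact ⟨T, hT, hmin⟩

/-- if near `z` every point of some `U j` is in one of the `U i`, `i ∈ s`, then `s` suffices -/
theorem suff_of_union {U : Fin k → Set ℂ} (hd : Dense (⋃ i, U i)) {s : Set (Fin k)} {z : ℂ}
    (hz : ∀ᶠ w in 𝓝 z, ∀ j, w ∈ U j → ∃ i ∈ s, w ∈ U i) :
    ∀ᶠ w in 𝓝 z, ∃ i ∈ s, i ∈ Pal U w ∧ (w ∉ XX U → w ∈ U i) := by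
  classical
  filter_upwards [eventually_eventually_nhds.2 hz] with w hw
  by_cases hX : w ∈ XX U
  · have h1 : w ∈ closure (⋃ i ∈ s, U i) := by
      rw [mem_closure_iff_frequently]
      have h2 : ∃ᶠ v in 𝓝 w, v ∈ ⋃ i, U i := mem_closure_iff_frequently.1 (hd w)
      refine (h2.and_eventually hw).mono fun v hv => ?_
      obtain ⟨j, hj⟩ := mem_iUnion.1 hv.1
      obtain ⟨i, hi, hvi⟩ := hv.2 j hj
      exact mem_iUnion₂.2 ⟨i, hi, hvi⟩
    rw [(Set.toFinite s).closure_biUnion] at h1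
    obtain ⟨i, hi, hwi⟩ := mem_iUnion₂.1 h1
    exact ⟨i, hi, hwi, fun hcon => absurd hX hcon⟩
  · have h1 : ∃ j, w ∈ U j := by simpa [XX] using hX
    obtain ⟨j, hj⟩ := h1
    obtain ⟨i, hi, hwi⟩ := hw.self_of_nhds j hj
    exact ⟨i, hi, subset_closure hwi, fun _ => hwi⟩

/-- existence from arbitrary open sets without unit distances and with dense union -/
theorem exists_irr_min (V : Fin 6 → Set ℂ) (hV : ∀ i, IsOpen (V i))
    (h : ∀ i, ∀ x ∈ V i, ∀ y ∈ V i, dist x y ≠ 1) (hd : Dense (⋃ i, V i)) :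
    ∃ U T, Irr U T ∧ (∀ i, V i ⊆ U i) ∧
      ∀ z, 4 ≤ (T z).ncard → ∀ s, s ⊆ T z →
        (∀ᶠ w in 𝓝 z, ∃ i ∈ s, i ∈ Pal U w ∧ (w ∉ XX U → w ∈ U i)) → s = T z := by
  choose U hVU hU hmax using fun i => exists_maximal (V i) (hV i) (h i)
  have hM := Mx.of_max hU (hd.mono (iUnion_mono hVU)) hmax
  obtain ⟨T, hT, hmin⟩ := exists_irr_min_of hM fun i x hx => (hmax i x).2 hx
  exact ⟨U, T, hT, hVU, hmin⟩

end Vale.Agent.P032.S5.H410
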