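import Vale.Agent.P032.S5.H410.Heavy
import Vale.Agent.P032.S5.H172.Compl6

/-!
# P032: the complement rule at a six coloured centre

`z` with all six colours, `v`, `q` on its unit circle with complementary palettes of three colours: then
`v`, `q` are opposite, if the two-pair points have clean circles and no point has five colours.
No assumption on the circle of `z`.
-/

open Set Filter Topology Metric

noncomputable section

namespace Vale.Agent.P032.S5.H410

open Vale.Agent.P032.Six Vale.Agent.P032.S5.H450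

variable {U : Fin 6 → Set ℂ} {T : ℂ → Set (Fin 6)} {X : Set (Fin 6)} {z v q : ℂ} {s t : Fin 6}

theorem cases_w (h : Irr U T) (N : Nd T X z v q) : T (v + q - z) = univ ∨
    (T (v + q - z)).ncard = 5 ∨ ((∃ s ∈ X, s ∉ T (v + q - z)) ∧ ∃ t ∈ Xᶜ, t ∉ T (v + q - z)) := by
  have N' := N.other
  set w := v + q - z with hw
  have five : ∀ {r : Fin 6}, r ∉ T w → (∀ i, i ≠ r → i ∈ T w) → (T w).ncard = 5 := by
    intro r hr hi
    have h1 : T w = {r}ᶜ := by
      ext i
      simp only [mem_compl_iff, mem_singleton_iff]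
      exact ⟨fun h2 h3 => hr (h3 ▸ h2), hi i⟩
    rw [h1]
    have := Set.ncard_add_ncard_compl ({r} : Set (Fin 6))
    rw [Nat.card_eq_fintype_card, Fintype.card_fin, Set.ncard_singleton] at this
    omega
  by_cases h1 : X ⊆ T w
  · by_cases h2 : Xᶜ ⊆ T w
    · left
      ext i
      simp only [mem_univ, iff_true]
      by_cases hi : i ∈ X
      · exact h1 hi
      · exact h2 hi
    · right; left
      obtain ⟨t, ht, htw⟩ := not_subset.1 h2
      refine five htw fun i hi => ?_
      by_cases hiX : i ∈ X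
      · exact h1 hiX
      · exact N'.swap.rest h ht htw ⟨hiX, hi⟩
  · obtain ⟨s, hs, hsw⟩ := not_subset.1 h1
    by_cases h2 : Xᶜ ⊆ T w
    · right; left
      refine five hsw fun i hi => ?_
      by_cases hiX : i ∈ X
      · exact N'.rest h hs hsw ⟨hiX, hi⟩
      · exact h2 hiX
    · obtain ⟨t, ht, htw⟩ := not_subset.1 h2
      exact Or.inr (Or.inr ⟨⟨s, hs, hsw⟩, t, ht, htw⟩)

/-- the second centre is not light at both ends (172's `compl6`, clean circle of the second centre
only) -/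
theorem light_false (h : Irr U T)
    (hmin : ∀ z, 4 ≤ (T z).ncard → ∀ s, s ⊆ T z → s ≠ T z →
      ¬ ∀ᶠ w in 𝓝 z, ∃ i ∈ s, w ∈ U i ∨ (w ∈ XX U ∧ i ∈ Pal U w))
    (N : Nd T X z v q) (hz : T z = univ)
    (h3 : ∀ y, dist y (v + q - z) = 1 → (T y).ncard ≤ 3) (hs : s ∈ X) (ht : t ∈ Xᶜ)
    (hsw : s ∉ T (v + q - z)) (htw : t ∉ T (v + q - z)) : False := by
  have sub : ∀ {Y : Set (Fin 6)}, Y ⊆ T z := fun {Y} => by rw [hz]; exact subset_univ _
  have sv : Stay T z v s := N.other.stay h hs hsw N.ne_other.symm sub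
  have sq : Stay T z q t := N.other.swap.stay h ht htw N.ne_other.symm sub
  set w := v + q - z with hw
  have Nw : Nd T X w v q := N.other
  have hx : ∀ x, dist x w = 1 → T x = X → x = v := fun x h1 h2 =>
    N.uniq_v h hs ht sv sq sub h1 h2
  have hy : ∀ y, dist y w = 1 → T y = Xᶜ → y = q ∨ y = q := by
    intro y h1 h2
    refine Or.inl (N.swap.uniq_v h (s := t) (t := s) ht (by rw [compl_compl]; exact hs) sq sv
      sub ?_ h2)
    rw [add_comm q v]
    exact h1
  obtain ⟨α, β, γ, hα, hβ, hγ, e⟩ := L3_node h hmin Nw (s := q) h3 hs hsw ht htw hx hy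
  have e1 : (α : ℂ) * (v - w) = -(((β + γ : ℝ) : ℂ) * (q - w)) := by
    push_cast
    linear_combination e
  have n1 : ‖v - w‖ = 1 := by rw [← dist_eq_norm]; exact Nw.dvc
  have n2 : ‖q - w‖ = 1 := by rw [← dist_eq_norm]; exact Nw.swap.dvc
  have e2 := congrArg norm e1
  rw [norm_neg, norm_mul, norm_mul, n1, n2, mul_one, mul_one, Complex.norm_real, Complex.norm_real,
    Real.norm_of_nonneg hα.le, Real.norm_of_nonneg (by positivity)] at e2
  rw [e2] at e1
  have hne0 : ((β + γ : ℝ) : ℂ) ≠ 0 := by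
    rw [Ne, Complex.ofReal_eq_zero]
    positivity
  have e3 : v - w = -(q - w) := by
    refine mul_left_cancel₀ hne0 ?_
    rw [e1]; ring
  exact Nw.op (by linear_combination e3)

theorem Nd_dist (N : Nd T X z v q) : dist (v + q - z) z ≤ 2 := by
  have e : v + q - z - z = (v - z) + (q - z) := by ring
  rw [dist_eq_norm, e]
  have h1 := norm_add_le (v - z) (q - z)
  rw [← dist_eq_norm, ← dist_eq_norm, dist_comm v z, dist_comm q z, N.dv, N.dq] at h1
  linarith

/-- the second centre is a two-pair point, if it is light at both ends -/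
theorem dpt_of_light' (h : Irr U T) (N : Nd T X z v q) (hz : T z = univ) (hs : s ∈ X)
    (ht : t ∈ Xᶜ) (hsw : s ∉ T (v + q - z)) (htw : t ∉ T (v + q - z)) :
    ∃ a b c d, DPt T (v + q - z) a b c d := by
  have sub : ∀ {Y : Set (Fin 6)}, Y ⊆ T z := fun {Y} => by rw [hz]; exact subset_univ _
  exact N.dpt_of_stay h hs ht (N.other.stay h hs hsw N.ne_other.symm sub)
    (N.other.swap.stay h ht htw N.ne_other.symm sub)

/-- **The complement rule**, local form. -/
theorem r_strong_loc (h : Irr U T)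
    (hmin : ∀ z, 4 ≤ (T z).ncard → ∀ s, s ⊆ T z → s ≠ T z →
      ¬ ∀ᶠ w in 𝓝 z, ∃ i ∈ s, w ∈ U i ∨ (w ∈ XX U ∧ i ∈ Pal U w))
    (hz : T z = univ) (hcl : ∀ w, dist w z ≤ 2 → (∃ a b c d, DPt T w a b c d) →
      ∀ y, dist y w = 1 → (T y).ncard ≤ 3) (h5 : ∀ w, dist w z ≤ 2 → (T w).ncard ≠ 5)
    (N : Nd T X z v q) : False := by
  refine heavy_false h hz N fun v' q' N' => ?_
  rcases cases_w h N' with h1 | h1 | ⟨⟨s, hs, hsw⟩, t, ht, htw⟩
  · exact h1
  · exact absurd h1 (h5 _ (Nd_dist N'))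
  · exact (light_false h hmin N' hz
      (hcl _ (Nd_dist N') (dpt_of_light' h N' hz hs ht hsw htw)) hs ht hsw htw).elim

/-- **The complement rule**: complementary palettes of three colours on the circle of a six coloured
point are opposite. -/
theorem r_strong (h : Irr U T)
    (hmin : ∀ z, 4 ≤ (T z).ncard → ∀ s, s ⊆ T z → s ≠ T z →
      ¬ ∀ᶠ w in 𝓝 z, ∃ i ∈ s, w ∈ U i ∨ (w ∈ XX U ∧ i ∈ Pal U w))
    (hU : ∀ z v, dist z v = 1 → 4 ≤ (T v).ncard →
      (5 ≤ (T z).ncard ∨ ∃ a b c d, DPt T z a b c d) → False)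
    (h5 : ∀ z, (T z).ncard ≠ 5) (h6 : (T z).ncard = 6) (hX : X.ncard = 3)
    (hv : dist v z = 1) (hq : dist q z = 1) (hTv : T v = X) (hTq : T q = Xᶜ) :
    v + q = 2 * z := by
  by_contra hne
  have hz : T z = univ := by
    refine Set.eq_of_subset_of_ncard_le (subset_univ _) ?_ (Set.toFinite _)
    rw [Set.ncard_univ, Nat.card_eq_fintype_card, Fintype.card_fin, h6]
  refine r_strong_loc h hmin hz (fun w _ hD y hy => ?_) (fun w _ => h5 w)
    (⟨hX, by rw [dist_comm]; exact hv, by rw [dist_comm]; exact hq, hTv, hTq, hne⟩ :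
      Nd T X z v q)
  by_contra hcon
  exact hU w y (by rw [dist_comm]; exact hy) (by omega) (Or.inr hD)

end Vale.Agent.P032.S5.H410
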